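import Vale.Agent.Lib.P132.Defs

/-!
# Exhaustion: approximately measure preserving maps of parts between two positive sets
-/

open MeasureTheory Filter Topology Set
open scoped ENNReal NNReal

namespace Vale.Agent.Lib.P132

set_option linter.unusedSectionVars false

variable {X Γ : Type*} [MeasurableSpace X] [Group Γ] [MulAction Γ X] [MeasurableConstSMul Γ X]

/-- The density of `μ ∘ h⁻¹` with respect to `μ`, so `μ (h⁻¹ Z) = ∫_Z sig h dμ`. -/
noncomputable abbrev sig (μ : Measure X) (h : Γ) : X → ℝ≥0∞ := (μ.map fun x => h • x).rnDeriv μ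

lemma measurable_smul' (h : Γ) : Measurable fun x : X => h • x := measurable_const_smul h

variable {μ : Measure X} [IsProbabilityMeasure μ]

lemma measure_preimage_eq (hns : ∀ g : Γ, μ.map (fun x => g • x) ≪ μ) (h : Γ) {Z : Set X}
    (hZ : MeasurableSet Z) : μ ((fun x => h • x) ⁻¹' Z) = ∫⁻ z in Z, sig μ h z ∂μ := by
  rw [Measure.setLIntegral_rnDeriv (hns h), Measure.map_apply (measurable_smul' h) hZ]

/-- `h⁻¹` has approximately constant Jacobian on `W`, in measure form. -/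
def Good (μ : Measure X) (h : Γ) (W : Set X) (c₁ c₂ : ℝ≥0∞) : Prop :=
  ∀ Z, Z ⊆ W → MeasurableSet Z →
    c₁ * μ Z ≤ μ ((fun x => h • x) ⁻¹' Z) ∧ μ ((fun x => h • x) ⁻¹' Z) ≤ c₂ * μ Z

lemma good_of_bounds (hns : ∀ g : Γ, μ.map (fun x => g • x) ≪ μ) {h : Γ} {W : Set X}
    {c₁ c₂ : ℝ≥0∞} (hb : ∀ z ∈ W, c₁ ≤ sig μ h z ∧ sig μ h z ≤ c₂) : Good μ h W c₁ c₂ := by
  intro Z hZW hZ
  rw [measure_preimage_eq hns h hZ]
  constructor
  · calc c₁ * μ Z = ∫⁻ _ in Z, c₁ ∂μ := by simp
      _ ≤ _ := setLIntegral_mono' hZ fun z hz => (hb z (hZW hz)).1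
  · calc ∫⁻ z in Z, sig μ h z ∂μ ≤ ∫⁻ _ in Z, c₂ ∂μ :=
          setLIntegral_mono' hZ fun z hz => (hb z (hZW hz)).2
      _ = c₂ * μ Z := by simp

lemma ae_of_good (hns : ∀ g : Γ, μ.map (fun x => g • x) ≪ μ) {h : Γ} {W : Set X}
    (hW : MeasurableSet W) {c₁ c₂ : ℝ≥0∞} (hG : Good μ h W c₁ c₂) :
    ∀ᵐ z ∂μ, z ∈ W → c₁ ≤ sig μ h z ∧ sig μ h z ≤ c₂ := by
  have hm : Measurable (sig μ h) := Measure.measurable_rnDeriv _ _
  have h1 : (fun _ => c₁) ≤ᵐ[μ.restrict W] sig μ h := by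
    refine ae_le_of_forall_setLIntegral_le_of_sigmaFinite measurable_const fun s hs _ => ?_
    rw [Measure.restrict_restrict hs]
    have := (hG (s ∩ W) inter_subset_right (hs.inter hW)).1
    rw [measure_preimage_eq hns h (hs.inter hW)] at this
    simpa using this
  have h2 : sig μ h ≤ᵐ[μ.restrict W] fun _ => c₂ := by
    refine ae_le_of_forall_setLIntegral_le_of_sigmaFinite hm fun s hs _ => ?_
    rw [Measure.restrict_restrict hs]
    have := (hG (s ∩ W) inter_subset_right (hs.inter hW)).2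
    rw [measure_preimage_eq hns h (hs.inter hW)] at this
    simpa using this
  have h3 := (ae_restrict_iff' hW).1 (h1.and h2)
  filter_upwards [h3] with z hz hzW
  exact hz hzW

lemma sig_pos (hns : ∀ g : Γ, μ.map (fun x => g • x) ≪ μ) (h : Γ) :
    ∀ᵐ z ∂μ, 0 < sig μ h z := by
  refine Measure.rnDeriv_pos' ?_
  refine Measure.AbsolutelyContinuous.mk fun E hE hE0 => ?_
  rw [Measure.map_apply (measurable_smul' h) hE] at hE0
  have h1 := hns h⁻¹ (s := (fun x => h • x) ⁻¹' E)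
  rw [Measure.map_apply (measurable_smul' h⁻¹) (measurable_smul' h hE)] at h1
  have h2 := h1 hE0
  have h3 : (fun x : X => h⁻¹ • x) ⁻¹' ((fun x => h • x) ⁻¹' E) = E := by
    ext x
    simp
  rwa [h3] at h2

lemma sig_lt_top (h : Γ) : ∀ᵐ z ∂μ, sig μ h z < ∞ := Measure.rnDeriv_lt_top _ _

variable [Countable Γ]

/-- Ergodicity moves any positive set partly into any other positive set. -/
lemma exists_translate_meet (herg : ErgodicAction μ Γ) {T S : Set X} (hS : MeasurableSet S)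
    (hT0 : μ T ≠ 0) (hS0 : μ S ≠ 0) : ∃ h : Γ, μ (T ∩ {z | h⁻¹ • z ∈ S}) ≠ 0 := by
  set A : Set X := ⋃ g : Γ, (fun x => g⁻¹ • x) ⁻¹' S with hA
  have hAm : MeasurableSet A := MeasurableSet.iUnion fun g => measurable_smul' g⁻¹ hS
  have hinv : ∀ k : Γ, (fun x => k • x) ⁻¹' A = A := by
    intro k
    ext z
    simp only [hA, mem_preimage, mem_iUnion]
    constructor
    · rintro ⟨g, hg⟩
      refine ⟨k⁻¹ * g, ?_⟩
      simpa [mul_smul] using hg
    · rintro ⟨g, hg⟩
      refine ⟨k * g, ?_⟩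
      simpa [mul_smul] using hg
  have hSA : S ⊆ A := by
    intro z hz
    refine mem_iUnion.2 ⟨1, ?_⟩
    simpa using hz
  have hA0 : μ A ≠ 0 := fun h0 => hS0 (measure_mono_null hSA h0)
  have hc : μ Aᶜ = 0 := by
    rcases herg A hAm (fun g => EventuallyEq.of_eq (hinv g)) with h | h
    · exact absurd h hA0
    · exact h
  by_contra hcon
  push Not at hcon
  apply hT0
  have hsub : T ⊆ (⋃ h : Γ, T ∩ {z | h⁻¹ • z ∈ S}) ∪ Aᶜ := by
    intro z hz
    by_cases hzA : z ∈ A
    · left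
      obtain ⟨g, hg⟩ := mem_iUnion.1 hzA
      exact mem_iUnion.2 ⟨g, hz, hg⟩
    · right
      exact hzA
  refine measure_mono_null hsub (measure_union_null ?_ hc)
  exact measure_iUnion_null hcon

/-- One level set of the Radon-Nikodym derivative meets a positive set in a positive set. -/
lemma exists_level (hns : ∀ g : Γ, μ.map (fun x => g • x) ≪ μ) (h : Γ) {W : Set X} (hW0 : μ W ≠ 0)
    {q : ℝ} (hq : 1 < q) :
    ∃ m : ℤ, μ (W ∩ {z | ENNReal.ofReal (q ^ m) ≤ sig μ h z ∧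
      sig μ h z ≤ ENNReal.ofReal (q ^ m * q)}) ≠ 0 := by
  by_contra hcon
  push Not at hcon
  apply hW0
  have h0 := measure_iUnion_null hcon
  have hae : ∀ᵐ z ∂μ, z ∈ W → z ∈ ⋃ m : ℤ, W ∩ {z | ENNReal.ofReal (q ^ m) ≤ sig μ h z ∧
      sig μ h z ≤ ENNReal.ofReal (q ^ m * q)} := by
    filter_upwards [sig_pos hns h, sig_lt_top (μ := μ) h] with z hz1 hz2 hzW
    have hpos : 0 < (sig μ h z).toReal := ENNReal.toReal_pos hz1.ne' hz2.ne
    obtain ⟨m, hm1, hm2⟩ := exists_mem_Ico_zpow hpos hq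
    refine mem_iUnion.2 ⟨m, hzW, ?_, ?_⟩
    · rw [ENNReal.ofReal_le_iff_le_toReal hz2.ne]
      exact hm1
    · rw [ENNReal.le_ofReal_iff_toReal_le hz2.ne (by positivity)]
      rw [zpow_add_one₀ (by positivity)] at hm2
      exact hm2.le
  have hsub : μ (W \ ⋃ m : ℤ, W ∩ {z | ENNReal.ofReal (q ^ m) ≤ sig μ h z ∧
      sig μ h z ≤ ENNReal.ofReal (q ^ m * q)}) = 0 := by
    rw [← nonpos_iff_eq_zero]
    refine le_trans (le_of_eq ?_) (le_refl (0 : ℝ≥0∞))
    rw [measure_eq_zero_iff_ae_notMem]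
    filter_upwards [hae] with z hz hzz
    exact hzz.2 (hz hzz.1)
  have := measure_mono_null (t := (W \ ⋃ m : ℤ, W ∩ {z | ENNReal.ofReal (q ^ m) ≤ sig μ h z ∧
      sig μ h z ≤ ENNReal.ofReal (q ^ m * q)}) ∪ ⋃ m : ℤ, W ∩ {z | ENNReal.ofReal (q ^ m) ≤ sig μ h z ∧
      sig μ h z ≤ ENNReal.ofReal (q ^ m * q)}) (s := W) (fun z hz => by
        by_cases hzz : z ∈ ⋃ m : ℤ, W ∩ {z | ENNReal.ofReal (q ^ m) ≤ sig μ h z ∧
            sig μ h z ≤ ENNReal.ofReal (q ^ m * q)}
        · exact Or.inr hzz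
        · exact Or.inl ⟨hz, hzz⟩) (measure_union_null hsub h0)
  exact this

/-- The piece lemma. -/
lemma exists_good_piece (hns : ∀ g : Γ, μ.map (fun x => g • x) ≪ μ) (herg : ErgodicAction μ Γ)
    (hratio : RatioSetContainsPositiveReals μ Γ) {T S : Set X} (hT : MeasurableSet T)
    (hS : MeasurableSet S) (hT0 : μ T ≠ 0) (hS0 : μ S ≠ 0) {δ : ℝ} (hδ : 0 < δ) (hδ1 : δ ≤ 1) :
    ∃ (h : Γ) (W : Set X), MeasurableSet W ∧ μ W ≠ 0 ∧ W ⊆ T ∧ (∀ z ∈ W, h⁻¹ • z ∈ S) ∧
      ∀ᵐ z ∂μ, z ∈ W → ENNReal.ofReal (1 - δ) ≤ sig μ h z ∧ sig μ h z ≤ ENNReal.ofReal (1 + δ) := by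
  obtain ⟨h₀, hh₀⟩ := exists_translate_meet herg hS hT0 hS0
  set W₀ := T ∩ {z | h₀⁻¹ • z ∈ S} with hW₀
  have hW₀m : MeasurableSet W₀ := hT.inter (measurable_smul' h₀⁻¹ hS)
  set q : ℝ := 1 + δ / 4 with hq
  have hq1 : 1 < q := by rw [hq]; linarith
  obtain ⟨m, hm⟩ := exists_level hns h₀ hh₀ hq1
  set lam : ℝ := q ^ m with hlam
  have hlam0 : 0 < lam := by positivity
  set W₂ := W₀ ∩ {z | ENNReal.ofReal lam ≤ sig μ h₀ z ∧ sig μ h₀ z ≤ ENNReal.ofReal (lam * q)}
    with hW₂
  have hsigm : Measurable (sig μ h₀) := Measure.measurable_rnDeriv _ _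
  have hW₂m : MeasurableSet W₂ := by
    refine hW₀m.inter ?_
    exact (measurableSet_le measurable_const hsigm).inter
      (measurableSet_le hsigm measurable_const)
  obtain ⟨k₁, Y₃, hY₃m, hY₃0, hY₃sub, hY₃k, hY₃b⟩ :=
    hratio (1 / lam) (by positivity) (δ / 4 / lam) (by positivity) W₂ hW₂m hm
  refine ⟨k₁⁻¹ * h₀, Y₃, hY₃m, hY₃0, fun z hz => (hY₃sub hz).1.1, ?_, ?_⟩
  · intro z hz
    have := (hY₃k z hz).1.2
    simpa [mul_smul] using this
  have hG₁ : Good μ (k₁⁻¹) Y₃ (ENNReal.ofReal (1 / lam - δ / 4 / lam))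
      (ENNReal.ofReal (1 / lam + δ / 4 / lam)) := good_of_bounds hns hY₃b
  have hG₀ : Good μ h₀ W₂ (ENNReal.ofReal lam) (ENNReal.ofReal (lam * q)) :=
    good_of_bounds hns fun z hz => hz.2
  refine ae_of_good hns hY₃m fun Z hZ hZm => ?_
  have hZ' : (fun x => k₁⁻¹ • x) ⁻¹' Z ⊆ W₂ := by
    intro x hx
    have := hY₃k _ (hZ hx)
    simpa using this
  have hZ'm : MeasurableSet ((fun x => k₁⁻¹ • x) ⁻¹' Z) := measurable_smul' k₁⁻¹ hZm
  have hcomp : (fun x => (k₁⁻¹ * h₀) • x) ⁻¹' Z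
      = (fun x => h₀ • x) ⁻¹' ((fun x => k₁⁻¹ • x) ⁻¹' Z) := by
    ext x
    simp [mul_smul]
  rw [hcomp]
  obtain ⟨h1, h2⟩ := hG₀ _ hZ' hZ'm
  obtain ⟨h3, h4⟩ := hG₁ Z hZ hZm
  have hr1 : ENNReal.ofReal (1 - δ) ≤ ENNReal.ofReal lam * ENNReal.ofReal (1 / lam - δ / 4 / lam) := by
    rw [← ENNReal.ofReal_mul hlam0.le]
    apply ENNReal.ofReal_le_ofReal
    have : lam * (1 / lam - δ / 4 / lam) = 1 - δ / 4 := by
      field_simp
    rw [this]
    linarith
  have hr2 : ENNReal.ofReal (lam * q) * ENNReal.ofReal (1 / lam + δ / 4 / lam) ≤ ENNReal.ofReal (1 + δ) := by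
    rw [← ENNReal.ofReal_mul (by positivity)]
    apply ENNReal.ofReal_le_ofReal
    have : lam * q * (1 / lam + δ / 4 / lam) = q * (1 + δ / 4) := by
      field_simp
    rw [this, hq]
    nlinarith
  constructor
  · calc ENNReal.ofReal (1 - δ) * μ Z
        ≤ ENNReal.ofReal lam * ENNReal.ofReal (1 / lam - δ / 4 / lam) * μ Z := by gcongr
      _ = ENNReal.ofReal lam * (ENNReal.ofReal (1 / lam - δ / 4 / lam) * μ Z) := by ring
      _ ≤ ENNReal.ofReal lam * μ ((fun x => k₁⁻¹ • x) ⁻¹' Z) := by gcongr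
      _ ≤ _ := h1
  · calc _ ≤ ENNReal.ofReal (lam * q) * μ ((fun x => k₁⁻¹ • x) ⁻¹' Z) := h2
      _ ≤ ENNReal.ofReal (lam * q) * (ENNReal.ofReal (1 / lam + δ / 4 / lam) * μ Z) := by gcongr
      _ = ENNReal.ofReal (lam * q) * ENNReal.ofReal (1 / lam + δ / 4 / lam) * μ Z := by ring
      _ ≤ ENNReal.ofReal (1 + δ) * μ Z := by gcongr

section Stages

variable (e : ℕ → Γ) (A : Γ → Set X) (T S : Set X)

/-- The next piece, given the parts `D ⊆ T` and `E ⊆ S` already used. -/
def pieceOf (n : ℕ) (D E : Set X) : Set X :=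
  (T \ D) ∩ A (e n) ∩ {z | (e n)⁻¹ • z ∈ S \ E}

/-- The parts used after `n` stages. -/
def stage : ℕ → Set X × Set X
  | 0 => (∅, ∅)
  | n + 1 => ((stage n).1 ∪ pieceOf e A T S n (stage n).1 (stage n).2,
      (stage n).2 ∪ {y | e n • y ∈ pieceOf e A T S n (stage n).1 (stage n).2})

/-- The `n`-th piece. -/
def pieceW (n : ℕ) : Set X := pieceOf e A T S n (stage e A T S n).1 (stage e A T S n).2

/-- The source of the `n`-th piece. -/
def pieceY (n : ℕ) : Set X := {y | e n • y ∈ pieceW e A T S n}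

lemma stage_fst_succ (n : ℕ) : (stage e A T S (n + 1)).1 = (stage e A T S n).1 ∪ pieceW e A T S n :=
  rfl

lemma stage_snd_succ (n : ℕ) : (stage e A T S (n + 1)).2 = (stage e A T S n).2 ∪ pieceY e A T S n :=
  rfl

lemma stage_fst_mono : Monotone fun n => (stage e A T S n).1 :=
  monotone_nat_of_le_succ fun n => by
    rw [stage_fst_succ]
    exact subset_union_left

lemma stage_snd_mono : Monotone fun n => (stage e A T S n).2 :=
  monotone_nat_of_le_succ fun n => by
    rw [stage_snd_succ]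
    exact subset_union_left

variable {e A T S}

lemma pieceW_subset (n : ℕ) : pieceW e A T S n ⊆ T := fun _ hz => hz.1.1.1

lemma pieceW_subset_A (n : ℕ) : pieceW e A T S n ⊆ A (e n) := fun _ hz => hz.1.2

lemma pieceY_subset (n : ℕ) : pieceY e A T S n ⊆ S := by
  intro y hy
  have : (e n)⁻¹ • e n • y ∈ S \ (stage e A T S n).2 := hy.2
  simpa using this.1

lemma pieceW_disjoint_stage (n : ℕ) : Disjoint (pieceW e A T S n) (stage e A T S n).1 :=
  Set.disjoint_left.2 fun _ hz hz' => hz.1.1.2 hz'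

lemma pieceY_disjoint_stage (n : ℕ) : Disjoint (pieceY e A T S n) (stage e A T S n).2 := by
  refine Set.disjoint_left.2 fun y hy hy' => ?_
  have : (e n)⁻¹ • e n • y ∈ S \ (stage e A T S n).2 := hy.2
  have h2 := this.2
  simp only [inv_smul_smul] at h2
  exact h2 hy'

lemma pieceW_subset_stage {i n : ℕ} (h : i < n) : pieceW e A T S i ⊆ (stage e A T S n).1 := by
  refine subset_trans ?_ (stage_fst_mono e A T S (Nat.succ_le_of_lt h))
  simp only [Nat.succ_eq_add_one, stage_fst_succ]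
  exact subset_union_right

lemma pieceY_subset_stage {i n : ℕ} (h : i < n) : pieceY e A T S i ⊆ (stage e A T S n).2 := by
  refine subset_trans ?_ (stage_snd_mono e A T S (Nat.succ_le_of_lt h))
  simp only [Nat.succ_eq_add_one, stage_snd_succ]
  exact subset_union_right

lemma pieceW_pairwise : Pairwise (Function.onFun Disjoint (pieceW e A T S)) := by
  intro i j hij
  rcases lt_or_gt_of_ne hij with h | h
  · exact ((pieceW_disjoint_stage j).mono_right (pieceW_subset_stage h)).symm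
  · exact (pieceW_disjoint_stage i).mono_right (pieceW_subset_stage h)

lemma pieceY_pairwise : Pairwise (Function.onFun Disjoint (pieceY e A T S)) := by
  intro i j hij
  rcases lt_or_gt_of_ne hij with h | h
  · exact ((pieceY_disjoint_stage j).mono_right (pieceY_subset_stage h)).symm
  · exact (pieceY_disjoint_stage i).mono_right (pieceY_subset_stage h)

lemma stage_measurable (hA : ∀ h, MeasurableSet (A h)) (hT : MeasurableSet T)
    (hS : MeasurableSet S) (n : ℕ) :
    MeasurableSet (stage e A T S n).1 ∧ MeasurableSet (stage e A T S n).2 ∧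
      MeasurableSet (pieceW e A T S n) ∧ MeasurableSet (pieceY e A T S n) := by
  induction n with
  | zero =>
    have h1 : MeasurableSet (stage e A T S 0).1 := MeasurableSet.empty
    have h2 : MeasurableSet (stage e A T S 0).2 := MeasurableSet.empty
    have h3 : MeasurableSet (pieceW e A T S 0) :=
      ((hT.diff h1).inter (hA _)).inter (measurable_smul' (e 0)⁻¹ (hS.diff h2))
    exact ⟨h1, h2, h3, measurable_smul' (e 0) h3⟩
  | succ n ih =>
    obtain ⟨h1, h2, h3, h4⟩ := ih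
    have h1' : MeasurableSet (stage e A T S (n + 1)).1 := h1.union h3
    have h2' : MeasurableSet (stage e A T S (n + 1)).2 := h2.union h4
    have h3' : MeasurableSet (pieceW e A T S (n + 1)) :=
      ((hT.diff h1').inter (hA _)).inter (measurable_smul' (e (n + 1))⁻¹ (hS.diff h2'))
    exact ⟨h1', h2', h3', measurable_smul' (e (n + 1)) h3'⟩

lemma measure_stage_snd (hA : ∀ h, MeasurableSet (A h)) (hT : MeasurableSet T)
    (hS : MeasurableSet S) (n : ℕ) :
    μ (stage e A T S n).2 = ∑ i ∈ Finset.range n, μ (pieceY e A T S i) := by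
  induction n with
  | zero => simp [stage]
  | succ n ih =>
    rw [stage_snd_succ, Finset.sum_range_succ, ← ih,
      measure_union (pieceY_disjoint_stage n).symm (stage_measurable hA hT hS n).2.2.2]

lemma measure_stage_fst (hA : ∀ h, MeasurableSet (A h)) (hT : MeasurableSet T)
    (hS : MeasurableSet S) (n : ℕ) :
    μ (stage e A T S n).1 = ∑ i ∈ Finset.range n, μ (pieceW e A T S i) := by
  induction n with
  | zero => simp [stage]
  | succ n ih =>
    rw [stage_fst_succ, Finset.sum_range_succ, ← ih,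
      measure_union (pieceW_disjoint_stage n).symm (stage_measurable hA hT hS n).2.2.1]

end Stages

/-- Exhaustion: a finite family of pieces covering a definite proportion. -/
theorem exists_pieces (hns : ∀ g : Γ, μ.map (fun x => g • x) ≪ μ) (herg : ErgodicAction μ Γ)
    (hratio : RatioSetContainsPositiveReals μ Γ) {T S : Set X} (hT : MeasurableSet T)
    (hS : MeasurableSet S) (hT0 : μ T ≠ 0) (hS0 : μ S ≠ 0) {δ : ℝ} (hδ : 0 < δ) (hδ1 : δ ≤ 1 / 2) :
    ∃ (N : ℕ) (h : ℕ → Γ) (W : ℕ → Set X), (∀ i, MeasurableSet (W i)) ∧ (∀ i, W i ⊆ T) ∧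
      (∀ i y, h i • y ∈ W i → y ∈ S) ∧
      (∀ i, ∀ z ∈ W i, ENNReal.ofReal (1 - δ) ≤ sig μ (h i) z ∧
        sig μ (h i) z ≤ ENNReal.ofReal (1 + δ)) ∧
      Pairwise (Function.onFun Disjoint W) ∧
      Pairwise (Function.onFun Disjoint fun i => {y | h i • y ∈ W i}) ∧
      min (μ T) (μ S) / 4 ≤ ∑ i ∈ Finset.range N, μ {y | h i • y ∈ W i} := by
  obtain ⟨e, he⟩ := exists_surjective_nat Γ
  set A : Γ → Set X := fun h => {z | ENNReal.ofReal (1 - δ) ≤ sig μ h z ∧
    sig μ h z ≤ ENNReal.ofReal (1 + δ)} with hAdef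
  have hA : ∀ h, MeasurableSet (A h) := fun h => by
    have hsigm : Measurable (sig μ h) := Measure.measurable_rnDeriv _ _
    exact (measurableSet_le measurable_const hsigm).inter (measurableSet_le hsigm measurable_const)
  have hm := stage_measurable (e := e) (A := A) (T := T) (S := S) hA hT hS
  set D : ℕ → Set X := fun n => (stage e A T S n).1 with hD
  set E : ℕ → Set X := fun n => (stage e A T S n).2 with hE
  have hDmono : Monotone D := stage_fst_mono e A T S
  have hEmono : Monotone E := stage_snd_mono e A T S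
  have hDsub : ∀ n, D n ⊆ T := by
    intro n
    induction n with
    | zero => exact empty_subset _
    | succ n ih =>
      simp only [hD, stage_fst_succ]
      exact union_subset ih (pieceW_subset n)
  have hEsub : ∀ n, E n ⊆ S := by
    intro n
    induction n with
    | zero => exact empty_subset _
    | succ n ih =>
      simp only [hE, stage_snd_succ]
      exact union_subset ih (pieceY_subset n)
  -- the key dichotomy
  have hdich : μ (T \ ⋃ n, D n) = 0 ∨ μ (S \ ⋃ n, E n) = 0 := by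
    by_contra hcon
    push Not at hcon
    have hDm : MeasurableSet (⋃ n, D n) := MeasurableSet.iUnion fun n => (hm n).1
    have hEm : MeasurableSet (⋃ n, E n) := MeasurableSet.iUnion fun n => (hm n).2.1
    obtain ⟨k, W, hWm, hW0, hWT, hWS, hWae⟩ := exists_good_piece hns herg hratio
      (hT.diff hDm) (hS.diff hEm) hcon.1 hcon.2 hδ (by linarith)
    obtain ⟨n, rfl⟩ := he k
    apply hW0
    rw [measure_eq_zero_iff_ae_notMem]
    filter_upwards [hWae] with z hz hzW
    have hzA := hz hzW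
    have hz1 : z ∈ pieceW e A T S n := by
      refine ⟨⟨⟨(hWT hzW).1, fun hzD => (hWT hzW).2 (mem_iUnion.2 ⟨n, hzD⟩)⟩, hzA⟩, ?_⟩
      have := hWS z hzW
      exact ⟨this.1, fun hh => this.2 (mem_iUnion.2 ⟨n, hh⟩)⟩
    have hz2 : z ∈ D (n + 1) := (pieceW_subset_stage (Nat.lt_succ_self n)) hz1
    exact (hWT hzW).2 (mem_iUnion.2 ⟨n + 1, hz2⟩)
  -- the lower bound on the sources
  have hY_ge : ∀ n, ENNReal.ofReal (1 - δ) * μ (D n) ≤ μ (E n) := by
    intro n
    have h1 : ∀ i, ENNReal.ofReal (1 - δ) * μ (pieceW e A T S i) ≤ μ (pieceY e A T S i) := by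
      intro i
      have hG : Good μ (e i) (pieceW e A T S i) (ENNReal.ofReal (1 - δ)) (ENNReal.ofReal (1 + δ)) :=
        good_of_bounds hns fun z hz => pieceW_subset_A i hz
      exact (hG _ subset_rfl (hm i).2.2.1).1
    simp only [hD, hE]
    rw [measure_stage_fst hA hT hS, measure_stage_snd hA hT hS, Finset.mul_sum]
    exact Finset.sum_le_sum fun i _ => h1 i
  set c := min (μ T) (μ S) with hc
  have hc0 : c ≠ 0 := by
    rw [hc]
    intro h0
    rcases min_choice (μ T) (μ S) with h | h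
    · rw [h] at h0; exact hT0 h0
    · rw [h] at h0; exact hS0 h0
  have hcfin : c ≠ ∞ := ne_top_of_le_ne_top (measure_ne_top μ T) (min_le_left _ _)
  have hhalf : c / 2 < c := ENNReal.half_lt_self hc0 hcfin
  -- find the stage
  have hfind : ∃ n, c / 4 ≤ μ (E n) := by
    rcases hdich with h | h
    · have hle : c ≤ μ (⋃ n, D n) := by
        refine le_trans (min_le_left _ _) ?_
        exact measure_mono_ae (ae_le_set.2 h)
      rw [hDmono.measure_iUnion] at hle
      obtain ⟨n, hn⟩ := lt_iSup_iff.1 (lt_of_lt_of_le hhalf hle)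
      refine ⟨n, le_trans ?_ (hY_ge n)⟩
      have h12 : (1 / 2 : ℝ≥0∞) ≤ ENNReal.ofReal (1 - δ) := by
        rw [show (1 / 2 : ℝ≥0∞) = ENNReal.ofReal (1 / 2) by
          rw [ENNReal.ofReal_div_of_pos (by norm_num)]; simp]
        apply ENNReal.ofReal_le_ofReal
        linarith
      have h4 : (4 : ℝ≥0∞)⁻¹ = 2⁻¹ * 2⁻¹ := by
        rw [← ENNReal.mul_inv (by norm_num) (by norm_num)]
        norm_num
      calc c / 4 = (1 / 2) * (c / 2) := by
            simp only [div_eq_mul_inv, h4, one_mul]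
            ring
        _ ≤ _ := by gcongr
    · have hle : c ≤ μ (⋃ n, E n) := by
        refine le_trans (min_le_right _ _) ?_
        exact measure_mono_ae (ae_le_set.2 h)
      rw [hEmono.measure_iUnion] at hle
      obtain ⟨n, hn⟩ := lt_iSup_iff.1 (lt_of_lt_of_le hhalf hle)
      refine ⟨n, le_trans ?_ hn.le⟩
      exact ENNReal.div_le_div_left (by norm_num) _
  obtain ⟨N, hN⟩ := hfind
  refine ⟨N, e, pieceW e A T S, fun i => (hm i).2.2.1, fun i => pieceW_subset i,
    fun i y hy => pieceY_subset i hy, fun i z hz => pieceW_subset_A i hz, pieceW_pairwise,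
    pieceY_pairwise, ?_⟩
  have := measure_stage_snd (μ := μ) (e := e) (A := A) (T := T) (S := S) hA hT hS N
  exact hN.trans (le_of_eq this)

end Vale.Agent.Lib.P132
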