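import Vale.Agent.Lib.P132.L2Ops
import Vale.Agent.Lib.P132.Exhaust

/-!
# Operators on `L²(X × Γ)`: the generators, and elements of the commutant
-/

open MeasureTheory Filter Topology Set
open scoped ENNReal NNReal InnerProductSpace

namespace Vale.Agent.Lib.P132

set_option linter.unusedSectionVars false

variable {X Γ : Type*} [MeasurableSpace X] [Group Γ] [MulAction Γ X] [MeasurableConstSMul Γ X]
  [Countable Γ] [MeasurableSpace Γ] [DiscreteMeasurableSpace Γ]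
  {μ : Measure X} [IsProbabilityMeasure μ]

/-- The measure `μ × count` on `X × Γ`. -/
noncomputable abbrev nu (μ : Measure X) (Γ : Type*) [MeasurableSpace Γ] : Measure (X × Γ) :=
  μ.prod Measure.count

lemma measurable_of_slices {β : Type*} [MeasurableSpace β] {f : X × Γ → β}
    (h : ∀ g, Measurable fun y => f (y, g)) : Measurable f :=
  measurable_from_prod_countable_left h

lemma lintegral_nu {G : X × Γ → ℝ≥0∞} (hG : Measurable G) :
    ∫⁻ p, G p ∂nu μ Γ = ∑' g, ∫⁻ y, G (y, g) ∂μ := by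
  rw [lintegral_prod_symm' G hG, lintegral_count]

lemma lintegral_nu_fst {G : X × Γ → ℝ≥0∞} (hG : Measurable G) :
    ∫⁻ p, G p ∂nu μ Γ = ∫⁻ y, ∑' g, G (y, g) ∂μ := by
  rw [lintegral_prod G hG.aemeasurable]
  simp only [lintegral_count]

lemma nu_apply {E : Set (X × Γ)} (hE : MeasurableSet E) :
    nu μ Γ E = ∑' g, μ {y | (y, g) ∈ E} := by
  rw [Measure.prod_apply_symm hE, lintegral_count]
  rfl

lemma ae_nu_iff {P : X × Γ → Prop} : (∀ᵐ p ∂nu μ Γ, P p) ↔ ∀ g, ∀ᵐ y ∂μ, P (y, g) := by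
  constructor
  · intro h g
    obtain ⟨N, hNsub, hNmeas, hN0⟩ := exists_measurable_superset_of_null h
    rw [nu_apply hNmeas, ENNReal.tsum_eq_zero] at hN0
    refine measure_mono_null ?_ (hN0 g)
    intro y hy
    exact hNsub hy
  · intro h
    rw [ae_iff]
    have hsub : {p : X × Γ | ¬ P p} ⊆ ⋃ g : Γ, {y | ¬ P (y, g)} ×ˢ {g} := by
      rintro ⟨y, g⟩ hp
      exact mem_iUnion.2 ⟨g, hp, rfl⟩
    refine measure_mono_null hsub (measure_iUnion_null fun g => ?_)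
    rw [Measure.prod_prod]
    have : μ {y | ¬ P (y, g)} = 0 := h g
    simp [this]

/-- Slice weighted compositions, the source of all our operators but the multiplications. -/
lemma wc_slice {a₀ : X → ℂ} (ha : Measurable a₀) {β : X → X} (hβ : Measurable β) (θ : Γ ≃ Γ)
    {C : ℝ≥0} (hb : ∀ Z, MeasurableSet Z → ∫⁻ y in β ⁻¹' Z, ‖a₀ y‖ₑ ^ 2 ∂μ ≤ C * μ Z) :
    WC (nu μ Γ) (fun p => a₀ p.1) (fun p => (β p.1, θ p.2)) C where
  meas_a := ha.comp measurable_fst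
  meas_τ := measurable_of_slices fun g => hβ.prodMk (measurable_const : Measurable fun _ : X => θ g)
  bound E hE := by
    have hτ : Measurable fun p : X × Γ => (β p.1, θ p.2) :=
      measurable_of_slices fun g => hβ.prodMk (measurable_const : Measurable fun _ : X => θ g)
    have hm : Measurable fun y => ‖a₀ y‖ₑ ^ 2 := ha.enorm.pow_const 2
    have hsl : ∀ g, MeasurableSet {y | (y, g) ∈ E} := fun g =>
      measurable_prodMk_right hE
    have hG : Measurable (((fun p : X × Γ => (β p.1, θ p.2)) ⁻¹' E).indicator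
        (fun x : X × Γ => ‖a₀ x.1‖ₑ ^ 2)) :=
      (Measurable.indicator (hm.comp measurable_fst) (hτ hE))
    rw [← lintegral_indicator (hτ hE), lintegral_nu hG, nu_apply hE, ← ENNReal.tsum_mul_left,
      ← θ.tsum_eq fun g => (C : ℝ≥0∞) * μ {y | (y, g) ∈ E}]
    refine ENNReal.tsum_le_tsum fun g => ?_
    refine le_trans (le_of_eq ?_) (hb _ (hsl (θ g)))
    rw [← lintegral_indicator (hβ (hsl (θ g)))]
    refine lintegral_congr fun y => ?_
    simp only [indicator]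
    rfl

/-- The unitary `u_h`. -/
lemma wc_u (h : Γ) : WC (nu μ Γ) (fun _ => (1 : ℂ)) (fun p => (p.1, h⁻¹ * p.2)) 1 := by
  have := wc_slice (μ := μ) (a₀ := fun _ => (1 : ℂ)) measurable_const (β := id) measurable_id
    (Equiv.mulLeft h⁻¹) (C := 1) (fun Z hZ => by simp)
  exact this

lemma ae_comp_u (h : Γ) {ζ ζ' : X × Γ → ℂ} (hζ : ζ =ᵐ[nu μ Γ] ζ') :
    (fun p => ζ (p.1, h⁻¹ * p.2)) =ᵐ[nu μ Γ] fun p => ζ' (p.1, h⁻¹ * p.2) := by
  have := (wc_u (μ := μ) h).ae_comp hζ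
  simpa using this

/-- The operator `π(f)`. -/
lemma wc_pi {f : X → ℂ} (hf : Measurable f) {C : ℝ≥0} (hC : ∀ x, ‖f x‖₊ ≤ C) :
    WC (nu μ Γ) (fun p => f (p.2 • p.1)) id (C ^ 2) :=
  wc_mul (measurable_of_slices fun g => hf.comp (measurable_const_smul g)) fun _ => hC _

/-- The commutant operator `R_f`, `(R_f ξ)(y, g) = f(y) ξ(y, g)`. -/
lemma wc_R {f : X → ℂ} (hf : Measurable f) {C : ℝ≥0} (hC : ∀ x, ‖f x‖₊ ≤ C) :
    WC (nu μ Γ) (fun p => f p.1) (fun p => (id p.1, (Equiv.refl Γ) p.2)) (C ^ 2) := by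
  refine wc_slice hf measurable_id _ fun Z _ => ?_
  calc ∫⁻ y in id ⁻¹' Z, ‖f y‖ₑ ^ 2 ∂μ
      ≤ ∫⁻ _ in id ⁻¹' Z, (C : ℝ≥0∞) ^ 2 ∂μ := by
        refine lintegral_mono fun x => ?_
        have : ‖f x‖ₑ ≤ (C : ℝ≥0∞) := by
          rw [enorm_eq_nnnorm]
          exact_mod_cast hC x
        gcongr
    _ = ((C ^ 2 : ℝ≥0) : ℝ≥0∞) * μ Z := by simp

/-- The commutant operator `T'`, `(T' ξ)(y, g) = 1_W(h y) ξ(h y, g h⁻¹)`, bounded when the
density `sig h` is bounded on `W`. -/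
lemma wc_T (hns : ∀ g : Γ, μ.map (fun x => g • x) ≪ μ) (h : Γ) {W : Set X} (hW : MeasurableSet W)
    {C : ℝ≥0} (hb : ∀ z ∈ W, sig μ h z ≤ C) :
    WC (nu μ Γ) (fun p => W.indicator (1 : X → ℂ) (h • p.1))
      (fun p => (h • p.1, (Equiv.mulRight h⁻¹) p.2)) C := by
  have hm : Measurable fun y => W.indicator (1 : X → ℂ) (h • y) :=
    (measurable_one.indicator hW).comp (measurable_const_smul h)
  refine wc_slice (a₀ := fun y => W.indicator (1 : X → ℂ) (h • y)) hm (measurable_const_smul h) _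
    fun Z hZ => ?_
  have hset : ∫⁻ y in (fun y => h • y) ⁻¹' Z, ‖W.indicator (1 : X → ℂ) (h • y)‖ₑ ^ 2 ∂μ
      = μ ((fun y => h • y) ⁻¹' (Z ∩ W)) := by
    rw [← lintegral_indicator (measurable_const_smul h hZ),
      ← lintegral_indicator_one (measurable_const_smul h (hZ.inter hW))]
    refine lintegral_congr fun y => ?_
    by_cases h1 : h • y ∈ Z <;> by_cases h2 : h • y ∈ W <;> simp [indicator, h1, h2]
  rw [hset, measure_preimage_eq hns h (hZ.inter hW)]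
  calc ∫⁻ z in Z ∩ W, sig μ h z ∂μ ≤ ∫⁻ _ in Z ∩ W, (C : ℝ≥0∞) ∂μ :=
        setLIntegral_mono' (hZ.inter hW) fun z hz => hb z hz.2
    _ = C * μ (Z ∩ W) := by simp
    _ ≤ C * μ Z := by gcongr; exact inter_subset_left

/-- Slice weighted compositions compatible with the action commute with the generators. -/
lemma mem_commutant {a₀ : X → ℂ} {β : X → X} {θ : Γ ≃ Γ} {C : ℝ≥0}
    (hW : WC (nu μ Γ) (fun p => a₀ p.1) (fun p => (β p.1, θ p.2)) C)
    (h1 : ∀ y g, θ g • β y = g • y) (h2 : ∀ k g, θ (k⁻¹ * g) = k⁻¹ * θ g) :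
    hW.op ∈ Set.centralizer (crossedProductGenerators μ Γ) := by
  rw [Set.mem_centralizer_iff]
  intro G hG
  ext1 ξ
  apply Lp.ext
  change G (hW.op ξ) =ᵐ[nu μ Γ] hW.op (G ξ)
  rcases hG with ⟨f, _, _, hGf⟩ | ⟨k, hGk⟩
  · have e1 := hGf (hW.op ξ)
    have e2 := hW.op_ae ξ
    have e3 := hW.op_ae' (hGf ξ)
    refine e1.trans (EventuallyEq.trans ?_ e3.symm)
    filter_upwards [e2] with p hp
    simp only [hp, h1]
    ring
  · have e1 := hGk (hW.op ξ)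
    have e2 := ae_comp_u k (hW.op_ae ξ)
    have e3 := hW.op_ae' (hGk ξ)
    refine e1.trans (e2.trans (EventuallyEq.trans ?_ e3.symm))
    filter_upwards with p
    simp only [h2]

/-- `R_f` is in the commutant. -/
lemma R_mem {f : X → ℂ} (hf : Measurable f) {C : ℝ≥0} (hC : ∀ x, ‖f x‖₊ ≤ C) :
    (wc_R (μ := μ) (Γ := Γ) hf hC).op ∈ Set.centralizer (crossedProductGenerators μ Γ) :=
  mem_commutant (a₀ := f) (β := id) (θ := Equiv.refl Γ) (wc_R hf hC) (fun _ _ => rfl) (fun _ _ => rfl)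

/-- `T'` is in the commutant. -/
lemma T_mem (hns : ∀ g : Γ, μ.map (fun x => g • x) ≪ μ) (h : Γ) {W : Set X} (hW : MeasurableSet W)
    {C : ℝ≥0} (hb : ∀ z ∈ W, sig μ h z ≤ C) :
    (wc_T hns h hW hb).op ∈ Set.centralizer (crossedProductGenerators μ Γ) :=
  mem_commutant (a₀ := fun y => W.indicator (1 : X → ℂ) (h • y)) (β := fun y => h • y)
    (θ := Equiv.mulRight h⁻¹) (wc_T hns h hW hb) (fun y g => by simp [mul_smul])
    (fun k g => by simp [mul_assoc])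

/-- Formula for `R_f`. -/
lemma R_ae {f : X → ℂ} (hf : Measurable f) {C : ℝ≥0} (hC : ∀ x, ‖f x‖₊ ≤ C)
    {ξ : CrossSpace μ Γ} {ζ : X × Γ → ℂ} (h : ξ =ᵐ[nu μ Γ] ζ) :
    (wc_R (μ := μ) (Γ := Γ) hf hC).op ξ =ᵐ[nu μ Γ] fun p => f p.1 * ζ p :=
  (wc_R (μ := μ) (Γ := Γ) hf hC).op_ae' h

/-- The operator `π(f)`. -/
noncomputable def piOp (f : X → ℂ) (hf : Measurable f) (C : ℝ≥0) (hC : ∀ x, ‖f x‖₊ ≤ C) :
    CrossSpace μ Γ →L[ℂ] CrossSpace μ Γ :=
  (wc_pi (μ := μ) (Γ := Γ) hf hC).op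

lemma piOp_ae {f : X → ℂ} (hf : Measurable f) {C : ℝ≥0} (hC : ∀ x, ‖f x‖₊ ≤ C)
    {ξ : CrossSpace μ Γ} {ζ : X × Γ → ℂ} (h : ξ =ᵐ[nu μ Γ] ζ) :
    piOp (μ := μ) (Γ := Γ) f hf C hC ξ =ᵐ[nu μ Γ] fun p => f (p.2 • p.1) * ζ p :=
  (wc_pi (μ := μ) (Γ := Γ) hf hC).op_ae' h

lemma piOp_isMul {f : X → ℂ} (hf : Measurable f) {C : ℝ≥0} (hC : ∀ x, ‖f x‖₊ ≤ C) :
    IsMulOperator μ Γ f (piOp f hf C hC) :=
  fun _ => piOp_ae hf hC (EventuallyEq.refl _ _)

lemma piOp_gen {f : X → ℂ} (hf : Measurable f) {C : ℝ≥0} (hC : ∀ x, ‖f x‖₊ ≤ C) :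
    piOp (μ := μ) (Γ := Γ) f hf C hC ∈ crossedProductGenerators μ Γ :=
  Or.inl ⟨f, hf, ⟨C, fun x => hC x⟩, piOp_isMul hf hC⟩

/-- The unitary `u_h`. -/
noncomputable def uOp (h : Γ) : CrossSpace μ Γ →L[ℂ] CrossSpace μ Γ :=
  (wc_u (μ := μ) h).op

lemma uOp_ae (h : Γ) {ξ : CrossSpace μ Γ} {ζ : X × Γ → ℂ} (hξ : ξ =ᵐ[nu μ Γ] ζ) :
    uOp (μ := μ) h ξ =ᵐ[nu μ Γ] fun p => ζ (p.1, h⁻¹ * p.2) := by
  have := (wc_u (μ := μ) h).op_ae' hξ
  simpa [uOp] using this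

lemma uOp_gen (h : Γ) : uOp (μ := μ) h ∈ crossedProductGenerators μ Γ :=
  Or.inr ⟨h, fun _ => uOp_ae h (EventuallyEq.refl _ _)⟩

lemma norm_uOp_sq_le (h : Γ) (ξ : CrossSpace μ Γ) : ‖uOp (μ := μ) h ξ‖ ^ 2 ≤ ‖ξ‖ ^ 2 := by
  have := (wc_u (μ := μ) h).norm_op_sq_le ξ
  simpa [uOp] using this

lemma gens_subset : crossedProductGenerators μ Γ ⊆ crossedProduct μ Γ :=
  Set.subset_centralizer_centralizer

/-- The von Neumann algebra, as a subalgebra. -/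
noncomputable def crossedSubalgebra (μ : Measure X) (Γ : Type*) [Group Γ] [MeasurableSpace Γ]
    [MulAction Γ X] : Subalgebra ℂ (CrossSpace μ Γ →L[ℂ] CrossSpace μ Γ) :=
  Subalgebra.centralizer ℂ (Set.centralizer (crossedProductGenerators μ Γ))

lemma mem_crossedSubalgebra {T : CrossSpace μ Γ →L[ℂ] CrossSpace μ Γ} :
    T ∈ crossedSubalgebra μ Γ ↔ T ∈ crossedProduct μ Γ := by
  rw [crossedSubalgebra, Subalgebra.mem_centralizer_iff]
  rfl

/-- Elements of the algebra commute with elements of the commutant. -/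
lemma comm_of_mem {T S : CrossSpace μ Γ →L[ℂ] CrossSpace μ Γ} (hT : T ∈ crossedProduct μ Γ)
    (hS : S ∈ Set.centralizer (crossedProductGenerators μ Γ)) (ξ : CrossSpace μ Γ) :
    T (S ξ) = S (T ξ) := by
  have := (Set.mem_centralizer_iff.1 hT) S hS
  exact (congrArg (fun A : CrossSpace μ Γ →L[ℂ] CrossSpace μ Γ => A ξ) this).symm

end Vale.Agent.Lib.P132
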