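import Mathlib

/-!
# Definitions for the bicentralizer of a group measure space factor

The von Neumann algebra `L^∞(X) ⋊ Γ` of a nonsingular action, acting on `L²(X × Γ, μ × count)`.
-/

open MeasureTheory Filter Topology
open scoped ENNReal InnerProductSpace

namespace Vale.Agent.Lib.P132

section Bicentralizer

variable {H : Type*} [NormedAddCommGroup H] [NormedSpace ℂ H]

/-- `w` is a uniformly bounded sequence in `M` which asymptotically centralizes `φ`:
`‖w n φ - φ w n‖ → 0`, the norm of the functional `y ↦ φ (y * w n) - φ (w n * y)` being the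
supremum of its values on the unit ball of `M`. -/
def AsymptoticallyCentralizes (M : Set (H →L[ℂ] H)) (φ : (H →L[ℂ] H) → ℂ)
    (w : ℕ → H →L[ℂ] H) : Prop :=
  (∀ n, w n ∈ M) ∧ (∃ C : ℝ, ∀ n, ‖w n‖ ≤ C) ∧
    ∀ ε : ℝ, 0 < ε → ∃ N, ∀ n ≥ N, ∀ y ∈ M, ‖y‖ ≤ 1 → ‖φ (y * w n) - φ (w n * y)‖ ≤ ε

/-- Connes' bicentralizer `B(M, φ)`: the elements `a ∈ M` such that `[a, w n] → 0` strongly for
every uniformly bounded sequence `w` asymptotically centralizing `φ`. -/
def bicentralizer (M : Set (H →L[ℂ] H)) (φ : (H →L[ℂ] H) → ℂ) : Set (H →L[ℂ] H) :=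
  {a | a ∈ M ∧ ∀ w : ℕ → H →L[ℂ] H, AsymptoticallyCentralizes M φ w →
    ∀ ξ : H, Tendsto (fun n => ‖(a * w n - w n * a) ξ‖) atTop (𝓝 0)}

/-- The scalar operators `ℂ 1`. -/
def scalarOperators (H : Type*) [NormedAddCommGroup H] [NormedSpace ℂ H] : Set (H →L[ℂ] H) :=
  {T | ∃ c : ℂ, T = c • (1 : H →L[ℂ] H)}

end Bicentralizer

section Action

variable {X : Type*} [MeasurableSpace X] (μ : Measure X)
variable (Γ : Type*) [Group Γ] [MeasurableSpace Γ] [MulAction Γ X]

/-- The Hilbert space `L²(X × Γ, μ × count)`, that is `L²(X) ⊗ ℓ²(Γ)`. -/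
abbrev CrossSpace : Type _ := Lp ℂ 2 (μ.prod (Measure.count : Measure Γ))

/-- The bounded operators on `L²(X × Γ)`. -/
abbrev CrossOp : Type _ := CrossSpace μ Γ →L[ℂ] CrossSpace μ Γ

variable {μ Γ} in
/-- The function on `X × Γ` underlying a vector of `L²(X × Γ)`. -/
noncomputable abbrev crossRep (ξ : CrossSpace μ Γ) : X × Γ → ℂ := ξ

/-- `T` is the operator `π(f)` of the crossed product, `(π(f) ξ)(y, g) = f(g • y) ξ(y, g)`. -/
def IsMulOperator (f : X → ℂ) (T : CrossOp μ Γ) : Prop :=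
  ∀ ξ : CrossSpace μ Γ, crossRep (T ξ) =ᵐ[μ.prod (Measure.count : Measure Γ)]
    fun p => f (p.2 • p.1) * crossRep ξ p

/-- `T` is the unitary `u_h` of the crossed product, `(u_h ξ)(y, g) = ξ(y, h⁻¹ g)`. -/
def IsTranslationOperator (h : Γ) (T : CrossOp μ Γ) : Prop :=
  ∀ ξ : CrossSpace μ Γ, crossRep (T ξ) =ᵐ[μ.prod (Measure.count : Measure Γ)]
    fun p => crossRep ξ (p.1, h⁻¹ * p.2)

/-- The generators of the crossed product: all `π(f)`, `f` bounded measurable, and all `u_h`.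
They satisfy `u_h π(f) u_h⁻¹ = π(f ∘ h⁻¹)` and `π(f)* = π(conj f)`, `u_h* = u_{h⁻¹}`. -/
def crossedProductGenerators : Set (CrossOp μ Γ) :=
  {T | (∃ f : X → ℂ, Measurable f ∧ (∃ C : ℝ, ∀ x, ‖f x‖ ≤ C) ∧ IsMulOperator μ Γ f T) ∨
    ∃ h : Γ, IsTranslationOperator μ Γ h T}

/-- The group measure space von Neumann algebra `L^∞(X) ⋊ Γ`: the double commutant of the
generators. -/
def crossedProduct : Set (CrossOp μ Γ) :=
  Set.centralizer (Set.centralizer (crossedProductGenerators μ Γ))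

/-- Krieger's ratio set of the action contains every `r > 0`, with
`dμ∘h/dμ = (μ.map (h⁻¹ • ·)).rnDeriv μ`, so that `μ (h • Z) = ∫_Z dμ∘h/dμ dμ`.
Equivalently, the crossed product of a free ergodic action is a factor of type III₁. -/
def RatioSetContainsPositiveReals : Prop :=
  ∀ r : ℝ, 0 < r → ∀ ε : ℝ, 0 < ε → ∀ S : Set X, MeasurableSet S → μ S ≠ 0 →
    ∃ (h : Γ) (Y : Set X), MeasurableSet Y ∧ μ Y ≠ 0 ∧ Y ⊆ S ∧ (∀ y ∈ Y, h • y ∈ S) ∧
      ∀ y ∈ Y, ENNReal.ofReal (r - ε) ≤ (μ.map fun x => h⁻¹ • x).rnDeriv μ y ∧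
        (μ.map fun x => h⁻¹ • x).rnDeriv μ y ≤ ENNReal.ofReal (r + ε)

/-- Ergodicity of a nonsingular action: sets invariant modulo null sets are null or conull. -/
def ErgodicAction : Prop :=
  ∀ A : Set X, MeasurableSet A → (∀ g : Γ, (fun x => g • x) ⁻¹' A =ᵐ[μ] A) → μ A = 0 ∨ μ Aᶜ = 0

variable [Countable Γ] [DiscreteMeasurableSpace Γ] [IsFiniteMeasure μ]

omit [Group Γ] [MulAction Γ X] in
lemma canonicalSet_measure_ne_top (g : Γ) :
    (μ.prod (Measure.count : Measure Γ)) (Set.univ ×ˢ {g}) ≠ ∞ := by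
  rw [Measure.prod_prod]
  simp

omit [Group Γ] [MulAction Γ X] [Countable Γ] [IsFiniteMeasure μ] in
lemma canonicalSet_measurable (g : Γ) : MeasurableSet ((Set.univ : Set X) ×ˢ ({g} : Set Γ)) :=
  MeasurableSet.univ.prod (measurableSet_singleton g)

/-- The canonical vector `1 ⊗ δ_e`, the indicator of `X × {1}`. -/
noncomputable def canonicalVector : CrossSpace μ Γ :=
  indicatorConstLp 2 (canonicalSet_measurable Γ 1) (canonicalSet_measure_ne_top μ Γ 1) (1 : ℂ)

/-- The canonical state `φ(T) = ⟪1 ⊗ δ_e, T (1 ⊗ δ_e)⟫`, which is `μ ∘ E` for the canonical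
conditional expectation `E` of the crossed product onto `L^∞(X)`. -/
noncomputable def canonicalState (T : CrossOp μ Γ) : ℂ :=
  ⟪canonicalVector μ Γ, T (canonicalVector μ Γ)⟫_ℂ

/-- The operators `π(f)` and `u_h` exist (for all bounded measurable `f` and all `h`). -/
def GeneratorsExist : Prop :=
  (∀ f : X → ℂ, Measurable f → (∃ C : ℝ, ∀ x, ‖f x‖ ≤ C) → ∃ T : CrossOp μ Γ, IsMulOperator μ Γ f T) ∧
    ∀ h : Γ, ∃ T : CrossOp μ Γ, IsTranslationOperator μ Γ h T

/-- The canonical vector is separating for the crossed product (so the canonical state is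
faithful). -/
def CanonicalVectorSeparating : Prop :=
  ∀ T ∈ crossedProduct μ Γ, T (canonicalVector μ Γ) = 0 → T = 0

/-- The conclusion: `B(M, φ) = ℂ 1`. -/
def BicentralizerIsTrivial : Prop :=
  bicentralizer (crossedProduct μ Γ) (canonicalState μ Γ) = scalarOperators (CrossSpace μ Γ)

end Action

end Vale.Agent.Lib.P132
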