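import Mathlib

/-!
# Weighted composition operators on `L²`
-/

open MeasureTheory Filter Topology Set
open scoped ENNReal InnerProductSpace NNReal

namespace Vale.Agent.Lib.P132

variable {α : Type*} [MeasurableSpace α] {ν : Measure α}

lemma L2_enorm_sq (ξ : Lp ℂ 2 ν) : ‖ξ‖ₑ ^ 2 = ∫⁻ x, ‖ξ x‖ₑ ^ 2 ∂ν := by
  rw [Lp.enorm_def, eLpNorm_eq_lintegral_rpow_enorm_toReal (by norm_num) (by norm_num)]
  simp only [ENNReal.toReal_ofNat, one_div]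
  rw [← ENNReal.rpow_natCast, ← ENNReal.rpow_mul]
  norm_num

lemma L2_norm_sq (ξ : Lp ℂ 2 ν) : ENNReal.ofReal (‖ξ‖ ^ 2) = ∫⁻ x, ‖ξ x‖ₑ ^ 2 ∂ν := by
  rw [← L2_enorm_sq, ← ofReal_norm, ENNReal.ofReal_pow (norm_nonneg _)]

lemma memLp_two_of_lintegral {g : α → ℂ} (hg : AEStronglyMeasurable g ν)
    (h : ∫⁻ x, ‖g x‖ₑ ^ 2 ∂ν ≠ ∞) : MemLp g 2 ν := by
  refine ⟨hg, ?_⟩
  rw [eLpNorm_eq_lintegral_rpow_enorm_toReal (by norm_num) (by norm_num)]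
  simp only [ENNReal.toReal_ofNat, one_div, ENNReal.rpow_ofNat]
  exact ENNReal.rpow_lt_top_of_nonneg (by norm_num) h

lemma L2_norm_sq_of_ae {ξ : Lp ℂ 2 ν} {g : α → ℂ} (h : ξ =ᵐ[ν] g) :
    ENNReal.ofReal (‖ξ‖ ^ 2) = ∫⁻ x, ‖g x‖ₑ ^ 2 ∂ν := by
  rw [L2_norm_sq]
  exact lintegral_congr_ae (h.mono fun x hx => by simp [hx])

/-- Two vectors with a.e. disjoint supports are orthogonal. -/
lemma inner_eq_zero_of_ae {ξ ζ : Lp ℂ 2 ν} (h : ∀ᵐ x ∂ν, ξ x = 0 ∨ ζ x = 0) : ⟪ξ, ζ⟫_ℂ = 0 := by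
  rw [L2.inner_def]
  apply integral_eq_zero_of_ae
  filter_upwards [h] with x hx
  rcases hx with hx | hx <;> simp [hx]

/-- Pythagoras for finite sums. -/
lemma norm_sum_sq_of_orthogonal {ι H : Type*} [NormedAddCommGroup H] [InnerProductSpace ℂ H]
    [DecidableEq ι] (s : Finset ι) (d : ι → H)
    (hd : ∀ i ∈ s, ∀ j ∈ s, i ≠ j → ⟪d i, d j⟫_ℂ = 0) :
    ‖∑ i ∈ s, d i‖ ^ 2 = ∑ i ∈ s, ‖d i‖ ^ 2 := by
  induction s using Finset.induction_on with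
  | empty => simp
  | insert a s ha ih =>
    rw [Finset.sum_insert ha, Finset.sum_insert ha,
      ← ih (fun i hi j hj hij => hd i (Finset.mem_insert_of_mem hi) j (Finset.mem_insert_of_mem hj) hij)]
    have h0 : ⟪d a, ∑ i ∈ s, d i⟫_ℂ = 0 := by
      rw [inner_sum]
      apply Finset.sum_eq_zero
      intro j hj
      apply hd a (Finset.mem_insert_self a s) j (Finset.mem_insert_of_mem hj)
      rintro rfl
      exact ha hj
    have := @norm_add_sq ℂ H _ _ _ (d a) (∑ i ∈ s, d i)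
    rw [this, h0]
    simp

/-- The data of a bounded weighted composition operator `ξ ↦ a * (ξ ∘ τ)` on `L²(ν)`. -/
structure WC (ν : Measure α) (a : α → ℂ) (τ : α → α) (C : ℝ≥0) : Prop where
  meas_a : Measurable a
  meas_τ : Measurable τ
  bound : ∀ E, MeasurableSet E → ∫⁻ x in τ ⁻¹' E, ‖a x‖ₑ ^ 2 ∂ν ≤ C * ν E

namespace WC

variable {a : α → ℂ} {τ : α → α} {C : ℝ≥0}

lemma lintegral_le (hW : WC ν a τ C) {f : α → ℝ≥0∞} (hf : Measurable f) :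
    ∫⁻ x, ‖a x‖ₑ ^ 2 * f (τ x) ∂ν ≤ C * ∫⁻ x, f x ∂ν := by
  have hm : Measurable fun x => ‖a x‖ₑ ^ 2 := (hW.meas_a.enorm).pow_const 2
  have hle : (ν.withDensity fun x => ‖a x‖ₑ ^ 2).map τ ≤ (C : ℝ≥0∞) • ν := by
    refine Measure.le_iff.2 fun E hE => ?_
    rw [Measure.map_apply hW.meas_τ hE, withDensity_apply _ (hW.meas_τ hE)]
    simpa using hW.bound E hE
  calc ∫⁻ x, ‖a x‖ₑ ^ 2 * f (τ x) ∂ν
      = ∫⁻ x, f (τ x) ∂(ν.withDensity fun x => ‖a x‖ₑ ^ 2) := by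
        exact (lintegral_withDensity_eq_lintegral_mul ν hm (hf.comp hW.meas_τ)).symm
    _ = ∫⁻ x, f x ∂((ν.withDensity fun x => ‖a x‖ₑ ^ 2).map τ) := by
        rw [lintegral_map hf hW.meas_τ]
    _ ≤ ∫⁻ x, f x ∂((C : ℝ≥0∞) • ν) := lintegral_mono' hle le_rfl
    _ = C * ∫⁻ x, f x ∂ν := by rw [lintegral_smul_measure, smul_eq_mul]

lemma ae_comp (hW : WC ν a τ C) {ζ ζ' : α → ℂ} (h : ζ =ᵐ[ν] ζ') :
    (fun x => a x * ζ (τ x)) =ᵐ[ν] fun x => a x * ζ' (τ x) := by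
  obtain ⟨N, hNsub, hNmeas, hN0⟩ : ∃ N, {x | ζ x ≠ ζ' x} ⊆ N ∧ MeasurableSet N ∧ ν N = 0 := by
    have : ν {x | ζ x ≠ ζ' x} = 0 := h
    exact exists_measurable_superset_of_null this
  have hb := hW.bound N hNmeas
  rw [hN0, mul_zero, nonpos_iff_eq_zero] at hb
  have hm : Measurable fun x => ‖a x‖ₑ ^ 2 := (hW.meas_a.enorm).pow_const 2
  rw [lintegral_eq_zero_iff hm] at hb
  have hb' := (ae_restrict_iff' (hW.meas_τ hNmeas)).1 hb
  filter_upwards [hb'] with x hx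
  by_cases hxN : τ x ∈ N
  · have : ‖a x‖ₑ ^ 2 = 0 := hx hxN
    have ha : a x = 0 := by simpa using this
    simp [ha]
  · have : ζ (τ x) = ζ' (τ x) := by
      by_contra hne
      exact hxN (hNsub hne)
    simp [this]

lemma memLp (hW : WC ν a τ C) (ξ : Lp ℂ 2 ν) : MemLp (fun x => a x * ξ (τ x)) 2 ν := by
  refine memLp_two_of_lintegral ?_ ?_
  · exact (hW.meas_a.stronglyMeasurable.mul
      ((Lp.stronglyMeasurable ξ).comp_measurable hW.meas_τ)).aestronglyMeasurable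
  · have hm : Measurable fun x => ‖ξ x‖ₑ ^ 2 :=
      ((Lp.stronglyMeasurable ξ).measurable.enorm).pow_const 2
    have := hW.lintegral_le hm
    rw [← L2_enorm_sq] at this
    refine ne_top_of_le_ne_top ?_ (le_trans (le_of_eq ?_) this)
    · exact ENNReal.mul_ne_top ENNReal.coe_ne_top (ENNReal.pow_ne_top enorm_ne_top)
    · refine lintegral_congr fun x => ?_
      rw [enorm_mul, mul_pow]

/-- The operator as a linear map. -/
noncomputable def toLinear (hW : WC ν a τ C) : Lp ℂ 2 ν →ₗ[ℂ] Lp ℂ 2 ν where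
  toFun ξ := (hW.memLp ξ).toLp _
  map_add' ξ₁ ξ₂ := by
    apply Lp.ext
    refine (MemLp.coeFn_toLp _).trans ?_
    refine (hW.ae_comp (Lp.coeFn_add ξ₁ ξ₂)).trans ?_
    refine EventuallyEq.trans ?_ (Lp.coeFn_add _ _).symm
    filter_upwards [MemLp.coeFn_toLp (hW.memLp ξ₁), MemLp.coeFn_toLp (hW.memLp ξ₂)] with x h₁ h₂
    simp only [Pi.add_apply, h₁, h₂, mul_add]
  map_smul' c ξ := by
    apply Lp.ext
    refine (MemLp.coeFn_toLp _).trans ?_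
    refine (hW.ae_comp (Lp.coeFn_smul c ξ)).trans ?_
    refine EventuallyEq.trans ?_ (Lp.coeFn_smul _ _).symm
    filter_upwards [MemLp.coeFn_toLp (hW.memLp ξ)] with x h₁
    simp only [Pi.smul_apply, RingHom.id_apply, h₁, smul_eq_mul]
    ring

lemma toLinear_ae (hW : WC ν a τ C) (ξ : Lp ℂ 2 ν) :
    hW.toLinear ξ =ᵐ[ν] fun x => a x * ξ (τ x) :=
  MemLp.coeFn_toLp (hW.memLp ξ)

lemma norm_toLinear_sq_le (hW : WC ν a τ C) (ξ : Lp ℂ 2 ν) :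
    ‖hW.toLinear ξ‖ ^ 2 ≤ C * ‖ξ‖ ^ 2 := by
  have hm : Measurable fun x => ‖ξ x‖ₑ ^ 2 :=
    ((Lp.stronglyMeasurable ξ).measurable.enorm).pow_const 2
  have h1 := hW.lintegral_le hm
  have h2 : ENNReal.ofReal (‖hW.toLinear ξ‖ ^ 2) ≤ C * ENNReal.ofReal (‖ξ‖ ^ 2) := by
    rw [L2_norm_sq_of_ae (hW.toLinear_ae ξ), L2_norm_sq]
    refine le_trans (le_of_eq ?_) h1
    refine lintegral_congr fun x => ?_
    rw [enorm_mul, mul_pow]
  have h3 : (C : ℝ≥0∞) * ENNReal.ofReal (‖ξ‖ ^ 2) = ENNReal.ofReal (C * ‖ξ‖ ^ 2) := by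
    rw [ENNReal.ofReal_mul C.coe_nonneg, ENNReal.ofReal_coe_nnreal]
  rw [h3] at h2
  exact (ENNReal.ofReal_le_ofReal_iff (by positivity)).1 h2

/-- The operator as a continuous linear map. -/
noncomputable def op (hW : WC ν a τ C) : Lp ℂ 2 ν →L[ℂ] Lp ℂ 2 ν :=
  hW.toLinear.mkContinuous (Real.sqrt C) fun ξ => by
    refine abs_le_of_sq_le_sq' ?_ (by positivity) |>.2
    rw [mul_pow, Real.sq_sqrt C.coe_nonneg]
    exact hW.norm_toLinear_sq_le ξ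

lemma op_ae (hW : WC ν a τ C) (ξ : Lp ℂ 2 ν) : hW.op ξ =ᵐ[ν] fun x => a x * ξ (τ x) :=
  hW.toLinear_ae ξ

lemma op_ae' (hW : WC ν a τ C) {ξ : Lp ℂ 2 ν} {ζ : α → ℂ} (h : ξ =ᵐ[ν] ζ) :
    hW.op ξ =ᵐ[ν] fun x => a x * ζ (τ x) :=
  (hW.op_ae ξ).trans (hW.ae_comp h)

lemma norm_op_sq_le (hW : WC ν a τ C) (ξ : Lp ℂ 2 ν) : ‖hW.op ξ‖ ^ 2 ≤ C * ‖ξ‖ ^ 2 :=
  hW.norm_toLinear_sq_le ξ

end WC

/-- Multiplication by a bounded measurable function. -/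
lemma wc_mul {F : α → ℂ} (hF : Measurable F) {C : ℝ≥0} (hC : ∀ x, ‖F x‖₊ ≤ C) :
    WC ν F id (C ^ 2) where
  meas_a := hF
  meas_τ := measurable_id
  bound E hE := by
    calc ∫⁻ x in id ⁻¹' E, ‖F x‖ₑ ^ 2 ∂ν
        ≤ ∫⁻ _ in id ⁻¹' E, (C : ℝ≥0∞) ^ 2 ∂ν := by
          refine lintegral_mono fun x => ?_
          have : ‖F x‖ₑ ≤ (C : ℝ≥0∞) := by
            rw [enorm_eq_nnnorm]
            exact_mod_cast hC x
          gcongr
      _ = ((C ^ 2 : ℝ≥0) : ℝ≥0∞) * ν E := by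
          simp

end Vale.Agent.Lib.P132
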