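import Vale.Agent.Lib.P132.Pieces

/-!
# The bicentralizer of a type III₁ group measure space factor is trivial
-/

open MeasureTheory Filter Topology Set
open scoped ENNReal NNReal InnerProductSpace Classical

namespace Vale.Agent.Lib.P132

set_option linter.unusedSectionVars false

variable {X Γ : Type*} [MeasurableSpace X] [Group Γ] [MulAction Γ X] [MeasurableConstSMul Γ X]
  [Countable Γ] [MeasurableSpace Γ] [DiscreteMeasurableSpace Γ]
  {μ : Measure X} [IsProbabilityMeasure μ]

omit [Group Γ] [MulAction Γ X] [MeasurableConstSMul Γ X] [Countable Γ] [MeasurableSpace Γ]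
  [DiscreteMeasurableSpace Γ] in
/-- A measurable function which is not a.e. constant separates two positive sets. -/
lemma exists_separated {b : X → ℂ} (hb : Measurable b) (hne : ¬ ∃ c : ℂ, b =ᵐ[μ] fun _ => c) :
    ∃ (S T : Set X) (c : ℝ), MeasurableSet S ∧ MeasurableSet T ∧ μ S ≠ 0 ∧ μ T ≠ 0 ∧ 0 < c ∧
      ∀ x ∈ S, ∀ x' ∈ T, c ≤ ‖b x' - b x‖ := by
  have hsep : ¬ ∀ U : Set ℂ, IsOpen U → (∀ᵐ x ∂μ, b x ∈ U) ∨ (∀ᵐ x ∂μ, b x ∉ U) := by
    intro h
    obtain ⟨a, ha⟩ := exists_eventuallyEq_const_of_forall_separating (l := ae μ) (f := b) IsOpen h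
    exact hne ⟨a, ha⟩
  push Not at hsep
  obtain ⟨U, hU, h1, h2⟩ := hsep
  rw [frequently_ae_iff] at h1 h2
  set C : Set ℂ := Uᶜ with hC
  have hCc : IsClosed C := hU.isClosed_compl
  set T : Set X := b ⁻¹' C with hT
  have hTm : MeasurableSet T := hb hCc.measurableSet
  have hT0 : μ T ≠ 0 := h1
  have hCne : C.Nonempty := by
    by_contra hemp
    rw [not_nonempty_iff_eq_empty] at hemp
    apply hT0
    simp [hT, hemp]
  set Sn : ℕ → Set X := fun n => b ⁻¹' {z | 1 / ((n : ℝ) + 1) ≤ Metric.infDist z C} with hSn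
  have hSnm : ∀ n, MeasurableSet (Sn n) := fun n =>
    hb (measurableSet_le measurable_const (Metric.continuous_infDist_pt C).measurable)
  have hex : ∃ n, μ (Sn n) ≠ 0 := by
    by_contra hcon
    push Not at hcon
    apply h2
    refine measure_mono_null ?_ (measure_iUnion_null hcon)
    intro x hx
    have hpos : 0 < Metric.infDist (b x) C :=
      (hCc.notMem_iff_infDist_pos hCne).1 (fun hx' => hx' hx)
    obtain ⟨n, hn⟩ := exists_nat_one_div_lt hpos
    exact mem_iUnion.2 ⟨n, hn.le⟩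
  obtain ⟨n, hn⟩ := hex
  refine ⟨Sn n, T, 1 / ((n : ℝ) + 1), hSnm n, hTm, hn, hT0, by positivity, ?_⟩
  intro x hx x' hx'
  have h3 : Metric.infDist (b x) C ≤ dist (b x) (b x') := Metric.infDist_le_dist_of_mem hx'
  rw [dist_comm, dist_eq_norm] at h3
  exact le_trans hx h3

/-- The formula for the difference of the two pieces on a vector supported on `X × {1}`. -/
lemma d_ae (hns : ∀ g : Γ, μ.map (fun x => g • x) ≪ μ) (h : Γ) {W : Set X}
    (hW : MeasurableSet W) {C : ℝ≥0} (hb : ∀ z ∈ W, sig μ h z ≤ C)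
    {α : CrossSpace μ Γ} {b : X → ℂ} (hα : α =ᵐ[nu μ Γ] fun p => if p.2 = 1 then b p.1 else 0) :
    (tOp hns h hW hb α - wOp h W hW α : CrossSpace μ Γ) =ᵐ[nu μ Γ]
      fun p => if p.2 = h then indF W (h • p.1) * (b (h • p.1) - b p.1) else 0 := by
  filter_upwards [Lp.coeFn_sub (tOp hns h hW hb α) (wOp h W hW α), tOp_ae hns h hW hb hα,
    wOp_ae h hW hα] with p h1 h2 h3
  rw [h1, Pi.sub_apply, h2, h3]
  by_cases hg : p.2 = h
  · simp [hg, mul_sub]
  · have h4 : ¬ p.2 * h⁻¹ = 1 := fun h' => hg (mul_inv_eq_one.1 h')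
    have h5 : ¬ h⁻¹ * p.2 = 1 := fun h' => hg (inv_mul_eq_one.1 h').symm
    simp [hg, h4, h5]

lemma d_norm_ge (hns : ∀ g : Γ, μ.map (fun x => g • x) ≪ μ) (h : Γ) {W : Set X}
    (hW : MeasurableSet W) {C : ℝ≥0} (hb : ∀ z ∈ W, sig μ h z ≤ C)
    {α : CrossSpace μ Γ} {b : X → ℂ} (hbm : Measurable b)
    (hα : α =ᵐ[nu μ Γ] fun p => if p.2 = 1 then b p.1 else 0) {c : ℝ} (hc : 0 < c)
    (hsep : ∀ y, h • y ∈ W → c ≤ ‖b (h • y) - b y‖) :
    ENNReal.ofReal (c ^ 2) * μ {y | h • y ∈ W} ≤
      ENNReal.ofReal (‖(tOp hns h hW hb α - wOp h W hW α : CrossSpace μ Γ)‖ ^ 2) := by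
  rw [L2_norm_sq_of_ae (d_ae hns h hW hb hα)]
  have hYm : MeasurableSet {y | h • y ∈ W} := measurable_const_smul h hW
  have hm : Measurable fun p : X × Γ =>
      ‖if p.2 = h then indF W (h • p.1) * (b (h • p.1) - b p.1) else 0‖ₑ ^ 2 := by
    refine measurable_of_slices fun g => ?_
    by_cases hg : g = h
    · simp only [hg, if_true]
      have h1 : Measurable fun y => indF W (h • y) :=
        (indF_meas hW).comp (measurable_const_smul h)
      have h2 : Measurable fun y => b (h • y) := hbm.comp (measurable_const_smul h)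
      exact ((h1.mul (h2.sub hbm)).enorm).pow_const 2
    · simp [hg]
  rw [lintegral_nu hm]
  refine le_trans ?_ (ENNReal.le_tsum h)
  simp only [if_true]
  rw [← setLIntegral_const, ← lintegral_indicator hYm]
  refine lintegral_mono fun y => ?_
  by_cases hy : h • y ∈ W
  · have hy' : y ∈ {y | h • y ∈ W} := hy
    rw [indicator_of_mem hy', indF_mem hy, one_mul, ← ofReal_norm, ← ENNReal.ofReal_pow (norm_nonneg _)]
    apply ENNReal.ofReal_le_ofReal
    have := hsep y hy
    gcongr
  · have hy' : y ∉ {y | h • y ∈ W} := hy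
    rw [indicator_of_notMem hy']
    exact zero_le

/-- The piecewise isometries which asymptotically centralize `φ` without asymptotically commuting
with a non constant element. -/
theorem exists_w (hns : ∀ g : Γ, μ.map (fun x => g • x) ≪ μ) (herg : ErgodicAction μ Γ)
    (hratio : RatioSetContainsPositiveReals μ Γ) {a : CrossSpace μ Γ →L[ℂ] CrossSpace μ Γ}
    (ha : a ∈ crossedProduct μ Γ) {b : X → ℂ} (hbm : Measurable b)
    (hα : a (canonicalVector μ Γ) =ᵐ[nu μ Γ] fun p => if p.2 = 1 then b p.1 else 0)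
    {S T : Set X} {c : ℝ} (hS : MeasurableSet S) (hT : MeasurableSet T) (hS0 : μ S ≠ 0)
    (hT0 : μ T ≠ 0) (hc : 0 < c) (hsep : ∀ x ∈ S, ∀ x' ∈ T, c ≤ ‖b x' - b x‖)
    {δ : ℝ} (hδ : 0 < δ) (hδ1 : δ ≤ 1 / 2) :
    ∃ w : CrossSpace μ Γ →L[ℂ] CrossSpace μ Γ, w ∈ crossedProduct μ Γ ∧ ‖w‖ ≤ 1 ∧
      (∀ y ∈ crossedProduct μ Γ, ‖y‖ ≤ 1 →
        ‖canonicalState μ Γ (y * w) - canonicalState μ Γ (w * y)‖ ≤ 2 * δ) ∧
      ENNReal.ofReal (c ^ 2) * (min (μ T) (μ S) / 4) ≤
        ENNReal.ofReal (‖(a * w - w * a) (canonicalVector μ Γ)‖ ^ 2) := by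
  obtain ⟨N, h, W, hWm, hWT, hWS, hbd, hdW, hdY, hmass⟩ :=
    exists_pieces hns herg hratio hT hS hT0 hS0 hδ hδ1
  have hb2 : ∀ i, ∀ z ∈ W i, sig μ (h i) z ≤ ((2 : ℝ≥0) : ℝ≥0∞) := by
    intro i z hz
    refine (hbd i z hz).2.trans ?_
    have : ENNReal.ofReal (1 + δ) ≤ ENNReal.ofReal 2 := ENNReal.ofReal_le_ofReal (by linarith)
    simpa using this
  set ξ₀ := canonicalVector μ Γ with hξ₀
  set wi : ℕ → CrossSpace μ Γ →L[ℂ] CrossSpace μ Γ := fun i => wOp (h i) (W i) (hWm i) with hwi
  set ti : ℕ → CrossSpace μ Γ →L[ℂ] CrossSpace μ Γ := fun i => tOp hns (h i) (hWm i) (hb2 i) with hti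
  have hwt : ∀ i, wi i ξ₀ = ti i ξ₀ := fun i => (tOp_eq_wOp hns (h i) (hWm i) (hb2 i)).symm
  have htm : ∀ i, ti i ∈ Set.centralizer (crossedProductGenerators μ Γ) :=
    fun i => tOp_mem hns (h i) (hWm i) (hb2 i)
  refine ⟨∑ i ∈ Finset.range N, wi i, ?_, wSum_norm_le N h W hWm hdW hdY, ?_, ?_⟩
  · rw [← mem_crossedSubalgebra]
    refine sum_mem fun i _ => ?_
    rw [mem_crossedSubalgebra]
    exact wOp_mem (h i) (hWm i)
  · intro y hy hy1
    set η := y ξ₀ with hη
    have hηn : ‖η‖ₑ ≤ 1 := by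
      have : ‖η‖ ≤ 1 := by
        calc ‖η‖ ≤ ‖y‖ * ‖ξ₀‖ := y.le_opNorm _
          _ ≤ 1 * 1 := by
            rw [hξ₀, norm_canonical]
            gcongr
          _ = 1 := by norm_num
      rw [← ofReal_norm]
      simpa using ENNReal.ofReal_le_ofReal this
    have e1 : canonicalState μ Γ (y * ∑ i ∈ Finset.range N, wi i)
        = ∑ i ∈ Finset.range N, ⟪ξ₀, ti i η⟫_ℂ := by
      simp only [canonicalState, mul_apply_eq_comp, sum_apply, map_sum, inner_sum]
      refine Finset.sum_congr rfl fun i _ => ?_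
      rw [← hξ₀, hwt i, comm_of_mem hy (htm i)]
    have e2 : canonicalState μ Γ ((∑ i ∈ Finset.range N, wi i) * y)
        = ∑ i ∈ Finset.range N, ⟪ξ₀, wi i η⟫_ℂ := by
      simp only [canonicalState, mul_apply_eq_comp, sum_apply, inner_sum]
      rfl
    rw [e1, e2, ← Finset.sum_sub_distrib]
    have hδ0 : 0 ≤ 2 * δ := by positivity
    have hmain : ‖∑ i ∈ Finset.range N, (⟪ξ₀, ti i η⟫_ℂ - ⟪ξ₀, wi i η⟫_ℂ)‖ₑ ≤ ENNReal.ofReal (2 * δ) := by
      calc ‖∑ i ∈ Finset.range N, (⟪ξ₀, ti i η⟫_ℂ - ⟪ξ₀, wi i η⟫_ℂ)‖ₑ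
          ≤ ∑ i ∈ Finset.range N, ‖⟪ξ₀, ti i η⟫_ℂ - ⟪ξ₀, wi i η⟫_ℂ‖ₑ := enorm_sum_le _ _
        _ ≤ ∑ i ∈ Finset.range N, (ENNReal.ofReal δ *
              ∫⁻ z, (if z ∈ W i then ‖η (z, (h i)⁻¹)‖ₑ else 0) ∂μ) :=
            Finset.sum_le_sum fun i _ =>
              term_bound hns (h i) (hWm i) (hb2 i) hδ.le (hbd i) η
        _ = ENNReal.ofReal δ * ∑ i ∈ Finset.range N,
              ∫⁻ z, (if z ∈ W i then ‖η (z, (h i)⁻¹)‖ₑ else 0) ∂μ := by rw [Finset.mul_sum]
        _ ≤ ENNReal.ofReal δ * (1 + ‖η‖ₑ ^ 2) := by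
            gcongr
            exact sum_term_le η N W (fun i => (h i)⁻¹) hWm hdW
        _ ≤ ENNReal.ofReal δ * 2 := by
            gcongr
            calc 1 + ‖η‖ₑ ^ 2 ≤ 1 + 1 ^ 2 := by gcongr
              _ = 2 := by norm_num
        _ = ENNReal.ofReal (2 * δ) := by
            rw [mul_comm 2 δ, ENNReal.ofReal_mul hδ.le]
            simp
    rw [← ofReal_norm] at hmain
    exact (ENNReal.ofReal_le_ofReal_iff hδ0).1 hmain
  · set α := a ξ₀ with hαdef
    have hcomm : (a * ∑ i ∈ Finset.range N, wi i - (∑ i ∈ Finset.range N, wi i) * a) ξ₀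
        = ∑ i ∈ Finset.range N, (ti i α - wi i α) := by
      simp only [sub_apply, mul_apply_eq_comp, sum_apply, map_sum]
      rw [Finset.sum_sub_distrib]
      congr 1
      refine Finset.sum_congr rfl fun i _ => ?_
      rw [hwt i, comm_of_mem ha (htm i)]
    rw [hcomm, norm_sum_sq_of_orthogonal]
    · rw [ENNReal.ofReal_sum_of_nonneg fun _ _ => by positivity]
      calc ENNReal.ofReal (c ^ 2) * (min (μ T) (μ S) / 4)
          ≤ ENNReal.ofReal (c ^ 2) * ∑ i ∈ Finset.range N, μ {y | h i • y ∈ W i} := by gcongr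
        _ = ∑ i ∈ Finset.range N, ENNReal.ofReal (c ^ 2) * μ {y | h i • y ∈ W i} :=
            Finset.mul_sum _ _ _
        _ ≤ _ := Finset.sum_le_sum fun i _ =>
            d_norm_ge hns (h i) (hWm i) (hb2 i) hbm hα hc fun y hy =>
              hsep y (hWS i y hy) _ (hWT i hy)
    · intro i _ j _ hij
      apply inner_eq_zero_of_ae
      filter_upwards [d_ae hns (h i) (hWm i) (hb2 i) hα, d_ae hns (h j) (hWm j) (hb2 j) hα]
        with p hpi hpj
      by_cases hi : h i • p.1 ∈ W i
      · have hj : h j • p.1 ∉ W j := fun hj =>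
          Set.disjoint_left.1 (hdY hij) hi hj
        right
        rw [hpj, indF_notMem hj]
        simp
      · left
        rw [hpi, indF_notMem hi]
        simp

/-- An element of the bicentralizer commutes with every `π(f)`. -/
lemma comm_pi {a : CrossSpace μ Γ →L[ℂ] CrossSpace μ Γ}
    (ha : a ∈ bicentralizer (crossedProduct μ Γ) (canonicalState μ Γ)) {f : X → ℂ}
    (hf : Measurable f) {C : ℝ≥0} (hC : ∀ x, ‖f x‖₊ ≤ C) :
    a * piOp f hf C hC = piOp f hf C hC * a := by
  have hR := R_mem (μ := μ) (Γ := Γ) hf hC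
  set R := (wc_R (μ := μ) (Γ := Γ) hf hC).op with hRdef
  set P : CrossSpace μ Γ →L[ℂ] CrossSpace μ Γ := piOp f hf C hC with hP
  have hPm : P ∈ crossedProduct μ Γ := gens_subset (piOp_gen hf hC)
  have hPR : P (canonicalVector μ Γ) = R (canonicalVector μ Γ) := by
    apply Lp.ext
    refine (piOp_ae hf hC canonicalVector_ae).trans (EventuallyEq.trans ?_
      (R_ae hf hC canonicalVector_ae).symm)
    refine Eventually.of_forall fun p => ?_
    by_cases hg : p.2 = 1
    · simp [hg]
    · simp [hg]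
  have hinner : ∀ v : CrossSpace μ Γ,
      ⟪canonicalVector μ Γ, P v⟫_ℂ = ⟪canonicalVector μ Γ, R v⟫_ℂ := by
    intro v
    rw [inner_canonical_of_ae (piOp_ae hf hC (EventuallyEq.refl _ _)),
      inner_canonical_of_ae (R_ae hf hC (EventuallyEq.refl _ _))]
    simp
  have hcen : AsymptoticallyCentralizes (crossedProduct μ Γ) (canonicalState μ Γ) fun _ => P := by
    refine ⟨fun _ => hPm, ⟨‖P‖, fun _ => le_rfl⟩, fun ε hε => ⟨0, fun n _ y hy _ => ?_⟩⟩
    have : canonicalState μ Γ (y * P) = canonicalState μ Γ (P * y) := by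
      simp only [canonicalState, mul_apply_eq_comp]
      rw [hPR, comm_of_mem hy hR, hinner]
    rw [this, sub_self, norm_zero]
    exact hε.le
  have ht := ha.2 _ hcen
  ext1 ξ
  have h0 : ‖(a * P - P * a) ξ‖ = 0 := tendsto_nhds_unique tendsto_const_nhds (ht ξ)
  have := norm_eq_zero.1 h0
  rw [sub_apply] at this
  exact sub_eq_zero.1 this

/-- The vector `a ξ₀` of an element of the bicentralizer lives on `X × {1}`. -/
lemma alpha_support [MeasurableSpace.CountablySeparated X] (hfree : ∀ g : Γ, g ≠ 1 → ∀ᵐ x ∂μ, g • x ≠ x)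
    {a : CrossSpace μ Γ →L[ℂ] CrossSpace μ Γ}
    (ha : a ∈ bicentralizer (crossedProduct μ Γ) (canonicalState μ Γ)) (g : Γ) (hg : g ≠ 1) :
    ∀ᵐ y ∂μ, a (canonicalVector μ Γ) (y, g) = 0 := by
  obtain ⟨F, hFc, hFm, hFs⟩ := exists_countable_separating X MeasurableSet univ
  set α := a (canonicalVector μ Γ) with hα
  have hU : ∀ U ∈ F, ∀ᵐ y ∂μ, indF U (g • y) * α (y, g) = indF U y * α (y, g) := by
    intro U hUF
    have hUm := hFm U hUF
    have hm := indF_meas hUm
    have hle := indF_le U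
    have hR := R_mem (μ := μ) (Γ := Γ) hm hle
    have hPR : piOp (indF U) hm 1 hle (canonicalVector μ Γ)
        = (wc_R (μ := μ) (Γ := Γ) hm hle).op (canonicalVector μ Γ) := by
      apply Lp.ext
      refine (piOp_ae hm hle canonicalVector_ae).trans (EventuallyEq.trans ?_
        (R_ae hm hle canonicalVector_ae).symm)
      refine Eventually.of_forall fun p => ?_
      by_cases hg : p.2 = 1 <;> simp [hg]
    have hc := comm_pi ha hm hle
    have key : piOp (indF U) hm 1 hle α = (wc_R (μ := μ) (Γ := Γ) hm hle).op α := by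
      have h1 := congrArg (fun A : CrossSpace μ Γ →L[ℂ] CrossSpace μ Γ => A (canonicalVector μ Γ)) hc
      simp only [mul_apply_eq_comp] at h1
      rw [hα, ← h1, hPR, comm_of_mem ha.1 hR]
    have e1 := piOp_ae hm hle (EventuallyEq.refl (ae (nu μ Γ)) ⇑α)
    have e2 := R_ae hm hle (EventuallyEq.refl (ae (nu μ Γ)) ⇑α)
    rw [key] at e1
    exact ae_nu_iff.1 (e1.symm.trans e2) g
  have hall : ∀ᵐ y ∂μ, ∀ U ∈ F, indF U (g • y) * α (y, g) = indF U y * α (y, g) :=
    (ae_ball_iff hFc).2 hU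
  filter_upwards [hall, hfree g hg] with y hy hgy
  by_contra hne
  apply hgy
  refine hFs (g • y) (mem_univ _) y (mem_univ _) fun U hUF => ?_
  have := mul_right_cancel₀ hne (hy U hUF)
  by_cases h1 : g • y ∈ U <;> by_cases h2 : y ∈ U
  · simp [h1, h2]
  · rw [indF_mem h1, indF_notMem h2] at this
    simp at this
  · rw [indF_notMem h1, indF_mem h2] at this
    simp at this
  · simp [h1, h2]

/-- The canonical vector is separating for the algebra. -/
lemma separating (hns : ∀ g : Γ, μ.map (fun x => g • x) ≪ μ)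
    {T : CrossSpace μ Γ →L[ℂ] CrossSpace μ Γ} (hT : T ∈ crossedProduct μ Γ)
    (h0 : T (canonicalVector μ Γ) = 0) : T = 0 := by
  -- a vector orthogonal to the kernel of `T` vanishes
  have key : ∀ ζ : CrossSpace μ Γ, (∀ u, T u = 0 → ⟪u, ζ⟫_ℂ = 0) → ζ = 0 := by
    intro ζ hζ
    have hslice : ∀ h : Γ, ∀ᵐ y ∂μ, ζ (y, h) = 0 := by
      intro h
      have hA : ∀ n : ℕ, ∀ᵐ y ∂μ, h • y ∈ {z | sig μ h z ≤ ((n : ℝ≥0) : ℝ≥0∞)} → ζ (y, h) = 0 := by
        intro n
        set Wn : Set X := {z | sig μ h z ≤ ((n : ℝ≥0) : ℝ≥0∞)} with hWn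
        have hWnm : MeasurableSet Wn :=
          measurableSet_le (Measure.measurable_rnDeriv _ _) measurable_const
        set Yn : Set X := {y | h • y ∈ Wn} with hYn
        have hYnm : MeasurableSet Yn := measurable_const_smul h hWnm
        have hint : Integrable (Yn.indicator fun y => ζ (y, h)) μ :=
          (slice_integrable ζ h).indicator hYnm
        have hz : Yn.indicator (fun y => ζ (y, h)) =ᵐ[μ] 0 := by
          refine hint.ae_eq_zero_of_forall_setIntegral_eq_zero fun Z hZ _ => ?_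
          set W' : Set X := {z | h⁻¹ • z ∈ Z} ∩ Wn with hW'
          have hW'm : MeasurableSet W' := (measurable_const_smul h⁻¹ hZ).inter hWnm
          have hb : ∀ z ∈ W', sig μ h z ≤ ((n : ℝ≥0) : ℝ≥0∞) := fun z hz => hz.2
          set T' := tOp hns h hW'm hb with hT'
          have hker : T (T' (canonicalVector μ Γ)) = 0 := by
            rw [comm_of_mem hT (tOp_mem hns h hW'm hb), h0, map_zero]
          have hinn := hζ _ hker
          -- compute the vector
          have hset : {y | h • y ∈ W'} = Z ∩ Yn := by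
            ext y
            simp [hW', hYn]
          have hE : MeasurableSet ((Z ∩ Yn) ×ˢ {h}) :=
            (hZ.inter hYnm).prod (measurableSet_singleton h)
          have hEfin : nu μ Γ ((Z ∩ Yn) ×ˢ {h}) ≠ ∞ := by
            rw [Measure.prod_prod]
            simp
          have hvec : T' (canonicalVector μ Γ) = indicatorConstLp 2 hE hEfin (1 : ℂ) := by
            apply Lp.ext
            refine (tOp_canonical hns h hW'm hb).trans (EventuallyEq.trans ?_
              (indicatorConstLp_coeFn (p := 2) (c := (1 : ℂ))).symm)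
            refine Eventually.of_forall fun p => ?_
            by_cases hp : p.2 = h
            · by_cases hy : h • p.1 ∈ W'
              · have : p.1 ∈ Z ∩ Yn := by
                  rw [← hset]
                  exact hy
                have hmem : p ∈ (Z ∩ Yn) ×ˢ {h} := ⟨this, hp⟩
                simp [hp, indF_mem hy, indicator_of_mem hmem]
              · have : p.1 ∉ Z ∩ Yn := by
                  rw [← hset]
                  exact hy
                have hmem : p ∉ (Z ∩ Yn) ×ˢ {h} := fun hq => this hq.1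
                simp [hp, indF_notMem hy, indicator_of_notMem hmem]
            · have hmem : p ∉ (Z ∩ Yn) ×ˢ {h} := fun hq => hp hq.2
              simp [hp, indicator_of_notMem hmem]
          rw [hvec, L2.inner_indicatorConstLp_one, setIntegral_slice (Lp.stronglyMeasurable ζ)] at hinn
          rw [setIntegral_indicator hYnm]
          exact hinn
        filter_upwards [hz] with y hy hyW
        have hy' : y ∈ Yn := hyW
        rw [Pi.zero_apply, indicator_of_mem hy'] at hy
        exact hy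
      have hall := ae_all_iff.2 hA
      have hfin : ∀ᵐ y ∂μ, sig μ h (h • y) < ∞ :=
        ae_of_ae_map (measurable_const_smul h).aemeasurable ((hns h).ae_le (sig_lt_top h))
      filter_upwards [hall, hfin] with y hy1 hy2
      obtain ⟨n, hn⟩ := ENNReal.exists_nat_gt hy2.ne
      refine hy1 n hn.le |> id
    apply Lp.ext
    refine EventuallyEq.trans ?_ (Lp.coeFn_zero _ _ _).symm
    exact ae_nu_iff.2 hslice
  ext1 ξ
  have h1 : ContinuousLinearMap.adjoint T (T ξ) = 0 := by
    apply key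
    intro u hu
    rw [ContinuousLinearMap.adjoint_inner_right, hu, inner_zero_left]
  have h2 : ⟪T ξ, T ξ⟫_ℂ = 0 := by
    rw [← ContinuousLinearMap.adjoint_inner_right, h1, inner_zero_right]
  simpa using h2

/-- The bicentralizer of the crossed product of a free ergodic action with full ratio set is
trivial. -/
theorem bicentralizer_eq [MeasurableSpace.CountablySeparated X]
    (hns : ∀ g : Γ, μ.map (fun x => g • x) ≪ μ)
    (hfree : ∀ g : Γ, g ≠ 1 → ∀ᵐ x ∂μ, g • x ≠ x) (herg : ErgodicAction μ Γ)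
    (hratio : RatioSetContainsPositiveReals μ Γ) :
    bicentralizer (crossedProduct μ Γ) (canonicalState μ Γ)
      = scalarOperators (CrossSpace μ Γ) := by
  ext a
  constructor
  · intro ha
    have haM : a ∈ crossedProduct μ Γ := ha.1
    set α := a (canonicalVector μ Γ) with hα
    set b : X → ℂ := fun y => α (y, 1) with hb
    have hbm : Measurable b := (slice_stronglyMeasurable α 1).measurable
    have hαb : α =ᵐ[nu μ Γ] fun p => if p.2 = 1 then b p.1 else 0 := by
      rw [EventuallyEq, ae_nu_iff]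
      intro g
      by_cases hg : g = 1
      · simp [hg, hb]
      · filter_upwards [alpha_support hfree ha g hg] with y hy
        show α (y, g) = if g = 1 then b y else 0
        rw [if_neg hg]
        exact hy
    have hconst : ∃ c : ℂ, b =ᵐ[μ] fun _ => c := by
      by_contra hne
      obtain ⟨S, T, c, hS, hT, hS0, hT0, hc, hsep⟩ := exists_separated hbm hne
      -- the lower bound on the commutators
      have hex : ∀ n : ℕ, ∃ w : CrossSpace μ Γ →L[ℂ] CrossSpace μ Γ, w ∈ crossedProduct μ Γ ∧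
          ‖w‖ ≤ 1 ∧ (∀ y ∈ crossedProduct μ Γ, ‖y‖ ≤ 1 →
            ‖canonicalState μ Γ (y * w) - canonicalState μ Γ (w * y)‖ ≤ 2 * (1 / (2 * ((n : ℝ) + 1)))) ∧
          ENNReal.ofReal (c ^ 2) * (min (μ T) (μ S) / 4) ≤
            ENNReal.ofReal (‖(a * w - w * a) (canonicalVector μ Γ)‖ ^ 2) := by
        intro n
        refine exists_w hns herg hratio haM hbm hαb hS hT hS0 hT0 hc hsep (by positivity) ?_
        rw [one_div, one_div]
        apply inv_anti₀ (by norm_num)
        have : (0 : ℝ) ≤ n := Nat.cast_nonneg n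
        linarith
      choose w hwM hw1 hwc hwl using hex
      have hcen : AsymptoticallyCentralizes (crossedProduct μ Γ) (canonicalState μ Γ) w := by
        refine ⟨hwM, ⟨1, hw1⟩, fun ε hε => ?_⟩
        obtain ⟨N, hN⟩ := exists_nat_one_div_lt hε
        refine ⟨N, fun n hn y hy hy1 => ?_⟩
        refine (hwc n y hy hy1).trans ?_
        have h1 : 2 * (1 / (2 * ((n : ℝ) + 1))) = 1 / ((n : ℝ) + 1) := by
          field_simp
        rw [h1]
        refine le_trans ?_ hN.le
        apply one_div_le_one_div_of_le (by positivity)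
        have : (N : ℝ) ≤ n := by exact_mod_cast hn
        linarith
      have ht := ha.2 w hcen (canonicalVector μ Γ)
      have hκ : ENNReal.ofReal (c ^ 2) * (min (μ T) (μ S) / 4) ≠ 0 := by
        refine mul_ne_zero (by simpa using by positivity) ?_
        refine (ENNReal.div_pos ?_ (by norm_num)).ne'
        rw [ne_eq, min_eq_iff]
        rintro (h | h)
        · exact hT0 h.1
        · exact hS0 h.1
      have ht2 : Tendsto (fun n => ENNReal.ofReal (‖(a * w n - w n * a) (canonicalVector μ Γ)‖ ^ 2))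
          atTop (𝓝 0) := by
        have := ENNReal.tendsto_ofReal (ht.pow 2)
        simpa using this
      have := ge_of_tendsto' ht2 hwl
      exact hκ (le_antisymm this zero_le)
    obtain ⟨c, hc⟩ := hconst
    refine ⟨c, ?_⟩
    have hcM : c • (1 : CrossSpace μ Γ →L[ℂ] CrossSpace μ Γ) ∈ crossedProduct μ Γ := by
      rw [← mem_crossedSubalgebra]
      exact Subalgebra.smul_mem _ (one_mem _) c
    have hdiff : a - c • (1 : CrossSpace μ Γ →L[ℂ] CrossSpace μ Γ) ∈ crossedProduct μ Γ := by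
      rw [← mem_crossedSubalgebra] at hcM ⊢
      rw [mem_crossedSubalgebra.symm] at haM
      exact sub_mem haM hcM
    have hzero : (a - c • (1 : CrossSpace μ Γ →L[ℂ] CrossSpace μ Γ)) (canonicalVector μ Γ) = 0 := by
      rw [sub_apply, sub_eq_zero]
      apply Lp.ext
      have hb1 : ∀ g, ∀ᵐ y ∂μ, (if g = (1 : Γ) then b y else 0) = c * if g = (1 : Γ) then (1 : ℂ) else 0 := by
        intro g
        filter_upwards [hc] with y hy
        by_cases hg : g = 1 <;> simp [hg, hy]
      have e1 : (c • (1 : CrossSpace μ Γ →L[ℂ] CrossSpace μ Γ)) (canonicalVector μ Γ)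
          =ᵐ[nu μ Γ] fun p => c * if p.2 = 1 then (1 : ℂ) else 0 := by
        have : (c • (1 : CrossSpace μ Γ →L[ℂ] CrossSpace μ Γ)) (canonicalVector μ Γ)
            = c • canonicalVector μ Γ := rfl
        rw [this]
        refine (Lp.coeFn_smul _ _).trans ?_
        filter_upwards [canonicalVector_ae (μ := μ) (Γ := Γ)] with p hp
        simp [hp]
      refine hαb.trans (EventuallyEq.trans ?_ e1.symm)
      exact ae_nu_iff.2 fun g => hb1 g
    exact sub_eq_zero.1 (separating hns hdiff hzero)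
  · rintro ⟨c, rfl⟩
    have hcM : c • (1 : CrossSpace μ Γ →L[ℂ] CrossSpace μ Γ) ∈ crossedProduct μ Γ := by
      rw [← mem_crossedSubalgebra]
      exact Subalgebra.smul_mem _ (one_mem _) c
    refine ⟨hcM, fun w _ ξ => ?_⟩
    have : ∀ n, ‖(c • (1 : CrossSpace μ Γ →L[ℂ] CrossSpace μ Γ) * w n
        - w n * c • (1 : CrossSpace μ Γ →L[ℂ] CrossSpace μ Γ)) ξ‖ = 0 := by
      intro n
      simp
    simp only [this]
    exact tendsto_const_nhds

end Vale.Agent.Lib.P132
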