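import Vale.Agent.Lib.P132.Cross

/-!
# The canonical vector and the piecewise isometries built from pieces
-/

open MeasureTheory Filter Topology Set
open scoped ENNReal NNReal InnerProductSpace Classical

namespace Vale.Agent.Lib.P132

set_option linter.unusedSectionVars false

variable {X Γ : Type*} [MeasurableSpace X] [Group Γ] [MulAction Γ X] [MeasurableConstSMul Γ X]
  [Countable Γ] [MeasurableSpace Γ] [DiscreteMeasurableSpace Γ]
  {μ : Measure X} [IsProbabilityMeasure μ]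

lemma setIntegral_slice {F : X × Γ → ℂ} (hF : StronglyMeasurable F) (Y : Set X) (g : Γ) :
    ∫ p in Y ×ˢ {g}, F p ∂nu μ Γ = ∫ y in Y, F (y, g) ∂μ := by
  rw [nu, ← Measure.prod_restrict, Measure.restrict_singleton, Measure.count_singleton, one_smul,
    Measure.prod_dirac, integral_map (by fun_prop) hF.aestronglyMeasurable]

lemma canonicalVector_ae :
    canonicalVector μ Γ =ᵐ[nu μ Γ] fun p => if p.2 = 1 then (1 : ℂ) else 0 := by
  refine (indicatorConstLp_coeFn (p := 2) (c := (1 : ℂ))).trans ?_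
  refine Eventually.of_forall fun p => ?_
  by_cases h : p.2 = 1 <;> simp [indicator, h]

lemma inner_canonical (v : CrossSpace μ Γ) :
    ⟪canonicalVector μ Γ, v⟫_ℂ = ∫ y, v (y, 1) ∂μ := by
  rw [canonicalVector, L2.inner_indicatorConstLp_one, setIntegral_slice (Lp.stronglyMeasurable v),
    Measure.restrict_univ]

lemma inner_canonical_of_ae {v : CrossSpace μ Γ} {ζ : X × Γ → ℂ} (h : v =ᵐ[nu μ Γ] ζ) :
    ⟪canonicalVector μ Γ, v⟫_ℂ = ∫ y, ζ (y, 1) ∂μ := by
  rw [inner_canonical]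
  exact integral_congr_ae (ae_nu_iff.1 h 1)

lemma norm_canonical : ‖canonicalVector μ Γ‖ = 1 := by
  rw [canonicalVector, norm_indicatorConstLp (by norm_num) (by norm_num), norm_one, one_mul]
  simp [Measure.real, Measure.prod_prod]

/-- The indicator function of `W`, complex valued. -/
noncomputable def indF (W : Set X) : X → ℂ := W.indicator 1

lemma indF_meas {W : Set X} (hW : MeasurableSet W) : Measurable (indF W) :=
  measurable_one.indicator hW

lemma indF_meas_pre (h : Γ) {W : Set X} (hW : MeasurableSet W) :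
    Measurable (indF {y | h • y ∈ W}) :=
  indF_meas (measurable_const_smul h hW)

lemma indF_le (W : Set X) (x : X) : ‖indF W x‖₊ ≤ 1 := by
  by_cases h : x ∈ W <;> simp [indF, h]

lemma indF_mem {W : Set X} {x : X} (h : x ∈ W) : indF W x = 1 := by simp [indF, h]

lemma indF_notMem {W : Set X} {x : X} (h : x ∉ W) : indF W x = 0 := by simp [indF, h]

lemma indF_preimage (h : Γ) (W : Set X) (x : X) : indF {y | h • y ∈ W} x = indF W (h • x) := by
  by_cases hx : h • x ∈ W
  · rw [indF_mem hx, indF_mem (W := {y | h • y ∈ W}) hx]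
  · rw [indF_notMem hx, indF_notMem (W := {y | h • y ∈ W}) hx]

/-- The piecewise isometry `u_h π(1_{h⁻¹ W})` of the algebra. -/
noncomputable def wOp (h : Γ) (W : Set X) (hW : MeasurableSet W) :
    CrossSpace μ Γ →L[ℂ] CrossSpace μ Γ :=
  uOp h * piOp (indF {y | h • y ∈ W}) (indF_meas_pre h hW) 1 (indF_le _)

lemma wOp_mem (h : Γ) {W : Set X} (hW : MeasurableSet W) :
    wOp (μ := μ) h W hW ∈ crossedProduct μ Γ := by
  rw [← mem_crossedSubalgebra]
  refine mul_mem ?_ ?_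
  · rw [mem_crossedSubalgebra]
    exact gens_subset (uOp_gen h)
  · rw [mem_crossedSubalgebra]
    exact gens_subset (piOp_gen _ _)

lemma wOp_ae (h : Γ) {W : Set X} (hW : MeasurableSet W) {ξ : CrossSpace μ Γ} {ζ : X × Γ → ℂ}
    (hξ : ξ =ᵐ[nu μ Γ] ζ) :
    wOp h W hW ξ =ᵐ[nu μ Γ] fun p => indF W (p.2 • p.1) * ζ (p.1, h⁻¹ * p.2) := by
  have e1 := piOp_ae (indF_meas_pre h hW) (indF_le {y | h • y ∈ W}) hξ
  have e2 := uOp_ae h e1
  refine e2.trans (Eventually.of_forall fun p => ?_)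
  have : indF {y | h • y ∈ W} ((h⁻¹ * p.2) • p.1) = indF W (p.2 • p.1) := by
    rw [indF_preimage, smul_smul, mul_inv_cancel_left]
  exact congrArg (· * ζ (p.1, h⁻¹ * p.2)) this

/-- The commutant operator `T'`. -/
noncomputable def tOp (hns : ∀ g : Γ, μ.map (fun x => g • x) ≪ μ) (h : Γ) {W : Set X}
    (hW : MeasurableSet W) {C : ℝ≥0} (hb : ∀ z ∈ W, sig μ h z ≤ C) :
    CrossSpace μ Γ →L[ℂ] CrossSpace μ Γ :=
  (wc_T hns h hW hb).op

lemma tOp_mem (hns : ∀ g : Γ, μ.map (fun x => g • x) ≪ μ) (h : Γ) {W : Set X}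
    (hW : MeasurableSet W) {C : ℝ≥0} (hb : ∀ z ∈ W, sig μ h z ≤ C) :
    tOp hns h hW hb ∈ Set.centralizer (crossedProductGenerators μ Γ) :=
  T_mem hns h hW hb

lemma tOp_ae (hns : ∀ g : Γ, μ.map (fun x => g • x) ≪ μ) (h : Γ) {W : Set X}
    (hW : MeasurableSet W) {C : ℝ≥0} (hb : ∀ z ∈ W, sig μ h z ≤ C)
    {ξ : CrossSpace μ Γ} {ζ : X × Γ → ℂ} (hξ : ξ =ᵐ[nu μ Γ] ζ) :
    tOp hns h hW hb ξ =ᵐ[nu μ Γ] fun p => indF W (h • p.1) * ζ (h • p.1, p.2 * h⁻¹) := by
  have := (wc_T hns h hW hb).op_ae' hξ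
  exact this

lemma tOp_canonical (hns : ∀ g : Γ, μ.map (fun x => g • x) ≪ μ) (h : Γ) {W : Set X}
    (hW : MeasurableSet W) {C : ℝ≥0} (hb : ∀ z ∈ W, sig μ h z ≤ C) :
    tOp hns h hW hb (canonicalVector μ Γ) =ᵐ[nu μ Γ]
      fun p => if p.2 = h then indF W (h • p.1) else 0 := by
  refine (tOp_ae hns h hW hb canonicalVector_ae).trans (Eventually.of_forall fun p => ?_)
  by_cases hg : p.2 = h
  · simp [hg]
  · have : ¬ p.2 * h⁻¹ = 1 := fun h' => hg (mul_inv_eq_one.1 h')
    simp [hg, this]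

lemma wOp_canonical (h : Γ) {W : Set X} (hW : MeasurableSet W) :
    wOp (μ := μ) h W hW (canonicalVector μ Γ) =ᵐ[nu μ Γ]
      fun p => if p.2 = h then indF W (h • p.1) else 0 := by
  refine (wOp_ae h hW canonicalVector_ae).trans (Eventually.of_forall fun p => ?_)
  by_cases hg : p.2 = h
  · simp [hg]
  · have : ¬ h⁻¹ * p.2 = 1 := fun h' => hg (inv_mul_eq_one.1 h').symm
    simp [hg, this]

lemma tOp_eq_wOp (hns : ∀ g : Γ, μ.map (fun x => g • x) ≪ μ) (h : Γ) {W : Set X}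
    (hW : MeasurableSet W) {C : ℝ≥0} (hb : ∀ z ∈ W, sig μ h z ≤ C) :
    tOp hns h hW hb (canonicalVector μ Γ) = wOp h W hW (canonicalVector μ Γ) :=
  Lp.ext ((tOp_canonical hns h hW hb).trans (wOp_canonical h hW).symm)

/-- The slices of an `L²` function are `L²`. -/
lemma lintegral_slice_le (η : CrossSpace μ Γ) (g : Γ) :
    ∫⁻ y, ‖η (y, g)‖ₑ ^ 2 ∂μ ≤ ‖η‖ₑ ^ 2 := by
  have hm : Measurable fun p : X × Γ => ‖η p‖ₑ ^ 2 :=
    ((Lp.stronglyMeasurable η).measurable.enorm).pow_const 2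
  rw [L2_enorm_sq, lintegral_nu hm]
  exact ENNReal.le_tsum g

lemma slice_stronglyMeasurable (η : CrossSpace μ Γ) (g : Γ) :
    StronglyMeasurable fun y => η (y, g) :=
  (Lp.stronglyMeasurable η).comp_measurable measurable_prodMk_right

lemma slice_memLp (η : CrossSpace μ Γ) (g : Γ) : MemLp (fun y => η (y, g)) 2 μ :=
  memLp_two_of_lintegral (slice_stronglyMeasurable η g).aestronglyMeasurable
    (ne_top_of_le_ne_top (ENNReal.pow_ne_top enorm_ne_top) (lintegral_slice_le η g))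

lemma slice_integrable (η : CrossSpace μ Γ) (g : Γ) : Integrable (fun y => η (y, g)) μ :=
  (slice_memLp η g).integrable one_le_two

lemma sum_ite_le {ι α : Type*} (s : Finset ι) (Y : ι → Set α)
    (hY : Pairwise (Function.onFun Disjoint Y)) (x : α) (F : ι → ℝ≥0∞) (K : ℝ≥0∞)
    (hF : ∀ i ∈ s, x ∈ Y i → F i ≤ K) :
    ∑ i ∈ s, (if x ∈ Y i then F i else 0) ≤ K := by
  by_cases h : ∃ i ∈ s, x ∈ Y i
  · obtain ⟨i, his, hi⟩ := h
    rw [Finset.sum_eq_single i]
    · simpa [hi] using hF i his hi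
    · intro j _ hji
      by_cases hj : x ∈ Y j
      · exact absurd hi (Set.disjoint_left.1 (hY hji) hj)
      · simp [hj]
    · intro hi'
      exact absurd his hi'
  · push Not at h
    rw [Finset.sum_eq_zero]
    · exact zero_le
    · intro i hi
      simp [h i hi]

/-- The estimate of a single term of the functional `y ↦ φ (y w) - φ (w y)`. -/
lemma term_bound (hns : ∀ g : Γ, μ.map (fun x => g • x) ≪ μ) (h : Γ) {W : Set X}
    (hW : MeasurableSet W) {C : ℝ≥0} (hb : ∀ z ∈ W, sig μ h z ≤ C) {δ : ℝ} (hδ : 0 ≤ δ)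
    (hbd : ∀ z ∈ W, ENNReal.ofReal (1 - δ) ≤ sig μ h z ∧ sig μ h z ≤ ENNReal.ofReal (1 + δ))
    (η : CrossSpace μ Γ) :
    ‖⟪canonicalVector μ Γ, tOp hns h hW hb η⟫_ℂ - ⟪canonicalVector μ Γ, wOp h W hW η⟫_ℂ‖ₑ ≤
      ENNReal.ofReal δ * ∫⁻ z, (if z ∈ W then ‖η (z, h⁻¹)‖ₑ else 0) ∂μ := by
  classical
  set G : X → ℂ := W.indicator fun z => η (z, h⁻¹) with hG
  have hGm : StronglyMeasurable G := (slice_stronglyMeasurable η h⁻¹).indicator hW
  have hGi : Integrable G μ := (slice_integrable η h⁻¹).indicator hW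
  have e1 : ⟪canonicalVector μ Γ, tOp hns h hW hb η⟫_ℂ = ∫ y, G (h • y) ∂μ := by
    rw [inner_canonical_of_ae (tOp_ae hns h hW hb (EventuallyEq.refl _ _))]
    refine integral_congr_ae (Eventually.of_forall fun y => ?_)
    by_cases hy : h • y ∈ W
    · simp [hG, indF_mem hy, hy]
    · simp [hG, indF_notMem hy, hy]
  have e2 : ⟪canonicalVector μ Γ, wOp h W hW η⟫_ℂ = ∫ y, G y ∂μ := by
    rw [inner_canonical_of_ae (wOp_ae h hW (EventuallyEq.refl _ _))]
    refine integral_congr_ae (Eventually.of_forall fun y => ?_)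
    by_cases hy : y ∈ W
    · simp [hG, indF_mem hy, hy]
    · simp [hG, indF_notMem hy, hy]
  have e3 : ∫ y, G (h • y) ∂μ = ∫ z, (sig μ h z).toReal • G z ∂μ := by
    rw [integral_rnDeriv_smul (hns h),
      integral_map (measurable_const_smul h).aemeasurable hGm.aestronglyMeasurable]
  have hsm : Measurable fun z => (sig μ h z).toReal :=
    (Measure.measurable_rnDeriv _ _).ennreal_toReal
  have hbound : ∀ z ∈ W, |(sig μ h z).toReal - 1| ≤ δ := by
    intro z hz
    obtain ⟨h1, h2⟩ := hbd z hz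
    have hfin : sig μ h z ≠ ∞ := ne_top_of_le_ne_top ENNReal.ofReal_ne_top h2
    have h3 : 1 - δ ≤ (sig μ h z).toReal := by
      by_cases hd : 1 - δ ≤ 0
      · exact hd.trans ENNReal.toReal_nonneg
      · exact (ENNReal.ofReal_le_iff_le_toReal hfin).1 h1
    have h4 : (sig μ h z).toReal ≤ 1 + δ := ENNReal.toReal_le_of_le_ofReal (by linarith) h2
    rw [abs_le]
    constructor <;> linarith
  have hGi2 : Integrable (fun z => (sig μ h z).toReal • G z) μ := by
    refine Integrable.mono' (g := fun z => (1 + δ) * ‖G z‖) (hGi.norm.const_mul _)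
      (hsm.stronglyMeasurable.smul hGm).aestronglyMeasurable (Eventually.of_forall fun z => ?_)
    by_cases hz : z ∈ W
    · have := abs_le.1 (hbound z hz)
      rw [norm_smul, Real.norm_eq_abs, abs_of_nonneg ENNReal.toReal_nonneg]
      gcongr
      linarith [this.2]
    · have : G z = 0 := by simp [hG, hz]
      simp [this]
  rw [e1, e2, e3, ← integral_sub hGi2 hGi, ← lintegral_const_mul' _ _ ENNReal.ofReal_ne_top]
  refine (enorm_integral_le_lintegral_enorm _).trans (lintegral_mono fun z => ?_)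
  by_cases hz : z ∈ W
  · have hGz : G z = η (z, h⁻¹) := by simp [hG, hz]
    have : (sig μ h z).toReal • G z - G z = ((sig μ h z).toReal - 1) • G z := by
      rw [sub_smul, one_smul]
    rw [this, enorm_smul, hGz, if_pos hz]
    gcongr
    rw [← ofReal_norm, Real.norm_eq_abs]
    exact ENNReal.ofReal_le_ofReal (hbound z hz)
  · have : G z = 0 := by simp [hG, hz]
    simp [this, hz]

/-- The sum over pieces of the terms above is bounded. -/
lemma sum_term_le (η : CrossSpace μ Γ) (N : ℕ) (W : ℕ → Set X) (g : ℕ → Γ)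
    (hWm : ∀ i, MeasurableSet (W i)) (hW : Pairwise (Function.onFun Disjoint W)) :
    ∑ i ∈ Finset.range N, ∫⁻ z, (if z ∈ W i then ‖η (z, g i)‖ₑ else 0) ∂μ ≤ 1 + ‖η‖ₑ ^ 2 := by
  have hm : Measurable fun p : X × Γ => ‖η p‖ₑ ^ 2 :=
    ((Lp.stronglyMeasurable η).measurable.enorm).pow_const 2
  have hsl : ∀ i, Measurable fun z => ‖η (z, g i)‖ₑ ^ 2 := fun i =>
    hm.comp measurable_prodMk_right
  have key : ∀ i, ∫⁻ z, (if z ∈ W i then ‖η (z, g i)‖ₑ else 0) ∂μ ≤
      ∫⁻ z, (if z ∈ W i then 1 + ‖η (z, g i)‖ₑ ^ 2 else 0) ∂μ := by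
    intro i
    refine lintegral_mono fun z => ?_
    by_cases hz : z ∈ W i
    · simp only [hz, if_true]
      rcases le_total ‖η (z, g i)‖ₑ 1 with h1 | h1
      · exact h1.trans le_self_add
      · refine le_trans ?_ le_add_self
        rw [sq]
        exact le_mul_of_one_le_left zero_le h1
    · simp [hz]
  calc ∑ i ∈ Finset.range N, ∫⁻ z, (if z ∈ W i then ‖η (z, g i)‖ₑ else 0) ∂μ
      ≤ ∑ i ∈ Finset.range N, ∫⁻ z, (if z ∈ W i then 1 + ‖η (z, g i)‖ₑ ^ 2 else 0) ∂μ :=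
        Finset.sum_le_sum fun i _ => key i
    _ = ∫⁻ z, ∑ i ∈ Finset.range N, (if z ∈ W i then 1 + ‖η (z, g i)‖ₑ ^ 2 else 0) ∂μ := by
        rw [lintegral_finsetSum]
        intro i _
        exact Measurable.ite (hWm i) (measurable_const.add (hsl i)) measurable_const
    _ ≤ ∫⁻ z, (1 + ∑' g', ‖η (z, g')‖ₑ ^ 2) ∂μ := by
        refine lintegral_mono fun z => ?_
        refine sum_ite_le _ W hW z _ _ fun i _ _ => ?_
        gcongr
        exact ENNReal.le_tsum (g i)
    _ = 1 + ‖η‖ₑ ^ 2 := by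
        rw [lintegral_add_left measurable_const, L2_enorm_sq, lintegral_nu_fst hm]
        simp

/-- The norm of a sum of pieces is at most `1`. -/
lemma wSum_norm_le (N : ℕ) (h : ℕ → Γ) (W : ℕ → Set X) (hWm : ∀ i, MeasurableSet (W i))
    (hW : Pairwise (Function.onFun Disjoint W))
    (hY : Pairwise (Function.onFun Disjoint fun i => {y | h i • y ∈ W i})) :
    ‖∑ i ∈ Finset.range N, wOp (μ := μ) (h i) (W i) (hWm i)‖ ≤ 1 := by
  refine ContinuousLinearMap.opNorm_le_bound _ zero_le_one fun η => ?_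
  rw [one_mul, sum_apply]
  refine abs_le_of_sq_le_sq' ?_ (norm_nonneg _) |>.2
  rw [norm_sum_sq_of_orthogonal]
  · -- the squared norms add up to at most `‖η‖²`
    have hm : Measurable fun p : X × Γ => ‖η p‖ₑ ^ 2 :=
      ((Lp.stronglyMeasurable η).measurable.enorm).pow_const 2
    have hterm : ∀ i, ENNReal.ofReal (‖wOp (μ := μ) (h i) (W i) (hWm i) η‖ ^ 2) ≤
        ∫⁻ p, (if p.2 • p.1 ∈ {y | h i • y ∈ W i} then ‖η p‖ₑ ^ 2 else 0) ∂nu μ Γ := by
      intro i
      have h1 : ‖wOp (μ := μ) (h i) (W i) (hWm i) η‖ ^ 2 ≤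
          ‖piOp (μ := μ) (Γ := Γ) (indF {y | h i • y ∈ W i})
            (indF_meas_pre (h i) (hWm i)) 1 (indF_le _) η‖ ^ 2 :=
        norm_uOp_sq_le (h i) _
      refine (ENNReal.ofReal_le_ofReal h1).trans ?_
      rw [L2_norm_sq_of_ae (piOp_ae (indF_meas_pre (h i) (hWm i))
        (indF_le _) (EventuallyEq.refl _ _))]
      refine le_of_eq (lintegral_congr fun p => ?_)
      by_cases hp : p.2 • p.1 ∈ {y | h i • y ∈ W i}
      · simp [indF_mem hp, hp]
      · simp [indF_notMem hp, hp]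
    have hsum : ENNReal.ofReal (∑ i ∈ Finset.range N, ‖wOp (μ := μ) (h i) (W i) (hWm i) η‖ ^ 2) ≤
        ENNReal.ofReal (‖η‖ ^ 2) := by
      rw [ENNReal.ofReal_sum_of_nonneg fun _ _ => by positivity, L2_norm_sq]
      calc ∑ i ∈ Finset.range N, ENNReal.ofReal (‖wOp (μ := μ) (h i) (W i) (hWm i) η‖ ^ 2)
          ≤ ∑ i ∈ Finset.range N,
              ∫⁻ p, (if p.2 • p.1 ∈ {y | h i • y ∈ W i} then ‖η p‖ₑ ^ 2 else 0) ∂nu μ Γ :=
            Finset.sum_le_sum fun i _ => hterm i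
        _ = ∫⁻ p, ∑ i ∈ Finset.range N,
              (if p.2 • p.1 ∈ {y | h i • y ∈ W i} then ‖η p‖ₑ ^ 2 else 0) ∂nu μ Γ := by
            rw [lintegral_finsetSum]
            intro i _
            refine Measurable.ite ?_ hm measurable_const
            exact (measurable_of_slices (f := fun p : X × Γ => p.2 • p.1)
              fun g => measurable_const_smul g) (measurable_const_smul (h i) (hWm i))
        _ ≤ ∫⁻ p, ‖η p‖ₑ ^ 2 ∂nu μ Γ := by
            refine lintegral_mono fun p => ?_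
            exact sum_ite_le _ _ hY (p.2 • p.1) _ _ fun _ _ _ => le_rfl
    exact (ENNReal.ofReal_le_ofReal_iff (by positivity)).1 hsum
  · intro i _ j _ hij
    apply inner_eq_zero_of_ae
    filter_upwards [wOp_ae (h i) (hWm i) (EventuallyEq.refl (ae (nu μ Γ)) ⇑η),
      wOp_ae (h j) (hWm j) (EventuallyEq.refl (ae (nu μ Γ)) ⇑η)] with p hpi hpj
    by_cases hi : p.2 • p.1 ∈ W i
    · have hj : p.2 • p.1 ∉ W j := Set.disjoint_left.1 (hW hij) hi
      right
      rw [hpj, indF_notMem hj, zero_mul]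
    · left
      rw [hpi, indF_notMem hi, zero_mul]

end Vale.Agent.Lib.P132
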